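import Vale.Agent.P088.R2.H551.V.Defs
import Vale.Agent.P088.R2.H16.Geo

/-!
# P088, two arbitrary pairs: calculus of matrix functions of `(x, y)`, the operators commute
-/

open MeasureTheory Set
open scoped ContDiff Matrix

noncomputable section

namespace Vale.Agent.P088.PJ.H359

open Vale.Agent.P088.LR Vale.Agent.P088.LR.U Vale.Agent.P088.LR.H158
open Vale.Agent.P088.HY (VV Bs Bn Un DB)

variable {n N : ℕ} {O : Set (VV n)}

/-- The derivative in the direction `v`. -/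
def DD (v : VV n) (K : KC n N) : KC n N := fun z =>
  Matrix.of fun a b => fderiv ℝ (fun z => K z a b) z v

/-- The vector `(e_i, 0)`. -/
def ex (i : Fin n) : VV n := (Pi.single i 1, 0)

/-- The vector `(0, e_i)`. -/
def ey (i : Fin n) : VV n := (0, Pi.single i 1)

theorem dxk_eq (i : Fin n) (K : KC n N) : dxk i K = DD (ex i) K := rfl
theorem dyk_eq (i : Fin n) (K : KC n N) : dyk i K = DD (ey i) K := rfl

theorem SmK.mono {O' : Set (VV n)} {K : KC n N} (h : SmK O K) (hO : O' ⊆ O) : SmK O' K :=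
  fun a b => (h a b).mono hO

theorem smk_univ {K : KC n N} : SmK univ K ↔ ∀ a b, ContDiff ℝ ∞ (fun z => K z a b) :=
  forall_congr' fun _ => forall_congr' fun _ => contDiffOn_univ

theorem da {K : KC n N} (hO : IsOpen O) (hK : SmK O K) {z : VV n} (hz : z ∈ O) (a b : Fin N) :
    DifferentiableAt ℝ (fun z => K z a b) z :=
  ((hK a b).contDiffAt (hO.mem_nhds hz)).differentiableAt (by simp)

theorem smk_DD (hO : IsOpen O) (v : VV n) {K : KC n N} (hK : SmK O K) : SmK O (DD v K) := by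
  intro a b
  have h := (hK a b).fderiv_of_isOpen (m := ∞) hO (by simp)
  exact h.clm_apply contDiffOn_const

theorem smk_sub {K L : KC n N} (hK : SmK O K) (hL : SmK O L) : SmK O (fun z => K z - L z) :=
  fun a b => (hK a b).sub (hL a b)

theorem smk_add {K L : KC n N} (hK : SmK O K) (hL : SmK O L) : SmK O (fun z => K z + L z) :=
  fun a b => (hK a b).add (hL a b)

theorem smk_sum {ι : Type*} {u : Finset ι} {K : ι → KC n N} (hK : ∀ i, SmK O (K i)) :
    SmK O (fun z => ∑ i ∈ u, K i z) := by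
  intro a b
  simp only [Matrix.sum_apply]
  exact ContDiffOn.sum fun i _ => hK i a b

theorem smk_smul {c : VV n → ℂ} (hc : ContDiffOn ℝ ∞ c O) {K : KC n N} (hK : SmK O K) :
    SmK O (fun z => c z • K z) := by
  intro a b
  simp only [Matrix.smul_apply, smul_eq_mul]
  exact hc.mul (hK a b)

theorem smk_mul {K L : KC n N} (hK : SmK O K) (hL : SmK O L) : SmK O (fun z => K z * L z) := by
  intro a b
  simp only [Matrix.mul_apply]
  exact ContDiffOn.sum fun i _ => (hK a i).mul (hL i b)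

theorem smk_fst {P : MC n N} (hP : SmC P) : SmK O (fun z => P z.1) := fun a b =>
  ((hP a b).comp contDiff_fst).contDiffOn

theorem smk_snd {P : MC n N} (hP : SmC P) : SmK O (fun z => P z.2) := fun a b =>
  ((hP a b).comp contDiff_snd).contDiffOn

theorem sm_fst {s : MF n} (hs : SmM s) (i j : Fin n) :
    ContDiffOn ℝ ∞ (fun z : VV n => (s z.1 i j : ℂ)) O :=
  (Complex.ofRealCLM.contDiff.comp ((hs i j).comp contDiff_fst)).contDiffOn

theorem sm_snd {s : MF n} (hs : SmM s) (i j : Fin n) :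
    ContDiffOn ℝ ∞ (fun z : VV n => (s z.2 i j : ℂ)) O :=
  (Complex.ofRealCLM.contDiff.comp ((hs i j).comp contDiff_snd)).contDiffOn

theorem DD_congr (hO : IsOpen O) (v : VV n) {K L : KC n N} (h : ∀ z ∈ O, K z = L z) :
    ∀ z ∈ O, DD v K z = DD v L z := by
  intro z hz
  ext a b
  have : (fun z => K z a b) =ᶠ[nhds z] fun z => L z a b :=
    Filter.eventually_of_mem (hO.mem_nhds hz) fun w hw => by
      show K w a b = L w a b
      rw [h w hw]
  simp only [DD, Matrix.of_apply]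
  rw [this.fderiv_eq]

theorem DD_sub (hO : IsOpen O) (v : VV n) {K L : KC n N} (hK : SmK O K) (hL : SmK O L) :
    ∀ z ∈ O, DD v (fun z => K z - L z) z = DD v K z - DD v L z := by
  intro z hz
  ext a b
  simp only [DD, Matrix.of_apply, Matrix.sub_apply]
  rw [fderiv_fun_sub (da hO hK hz a b) (da hO hL hz a b)]
  rfl

theorem DD_add (hO : IsOpen O) (v : VV n) {K L : KC n N} (hK : SmK O K) (hL : SmK O L) :
    ∀ z ∈ O, DD v (fun z => K z + L z) z = DD v K z + DD v L z := by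
  intro z hz
  ext a b
  simp only [DD, Matrix.of_apply, Matrix.add_apply]
  rw [fderiv_fun_add (da hO hK hz a b) (da hO hL hz a b)]
  rfl

theorem DD_sum (hO : IsOpen O) (v : VV n) {ι : Type*} {u : Finset ι} {K : ι → KC n N}
    (hK : ∀ i, SmK O (K i)) :
    ∀ z ∈ O, DD v (fun z => ∑ i ∈ u, K i z) z = ∑ i ∈ u, DD v (K i) z := by
  intro z hz
  ext a b
  simp only [DD, Matrix.of_apply, Matrix.sum_apply]
  rw [fderiv_fun_sum fun i _ => da hO (hK i) hz a b]
  simp

theorem DD_smul (hO : IsOpen O) (v : VV n) {c : VV n → ℂ} (hc : ContDiffOn ℝ ∞ c O) {K : KC n N}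
    (hK : SmK O K) (h0 : ∀ z ∈ O, fderiv ℝ c z v = 0) :
    ∀ z ∈ O, DD v (fun z => c z • K z) z = c z • DD v K z := by
  intro z hz
  ext a b
  have h1 : DifferentiableAt ℝ c z := (hc.contDiffAt (hO.mem_nhds hz)).differentiableAt (by simp)
  simp only [DD, Matrix.of_apply, Matrix.smul_apply, smul_eq_mul]
  rw [fderiv_fun_mul h1 (da hO hK hz a b)]
  simp [h0 z hz]

theorem DD_mul (hO : IsOpen O) (v : VV n) {K L : KC n N} (hK : SmK O K) (hL : SmK O L) :
    ∀ z ∈ O, DD v (fun z => K z * L z) z = DD v K z * L z + K z * DD v L z := by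
  intro z hz
  ext a b
  simp only [DD, Matrix.of_apply, Matrix.mul_apply, Matrix.add_apply]
  rw [fderiv_fun_sum fun c _ => (da hO hK hz a c).fun_mul (da hO hL hz c b),
    ContinuousLinearMap.sum_apply, ← Finset.sum_add_distrib]
  refine Finset.sum_congr rfl fun c _ => ?_
  rw [fderiv_fun_mul (da hO hK hz a c) (da hO hL hz c b)]
  simp
  ring

theorem DD_comm (hO : IsOpen O) (v w : VV n) {K : KC n N} (hK : SmK O K) :
    ∀ z ∈ O, DD v (DD w K) z = DD w (DD v K) z := by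
  intro z hz
  ext a b
  set f : VV n → ℂ := fun z => K z a b with hf
  have hfs : ContDiffOn ℝ ∞ f O := hK a b
  have hd : DifferentiableAt ℝ (fderiv ℝ f) z := by
    have h := hfs.fderiv_of_isOpen (m := ∞) hO (by simp)
    exact (h.contDiffAt (hO.mem_nhds hz)).differentiableAt (by simp)
  have hs : IsSymmSndFDerivAt ℝ f z :=
    (hfs.contDiffAt (hO.mem_nhds hz)).isSymmSndFDerivAt (by
      rw [minSmoothness_of_isRCLikeNormedField]
      exact ENat.LEInfty.out)
  have e : ∀ a b : VV n, fderiv ℝ (fun z => fderiv ℝ f z b) z a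
      = fderiv ℝ (fderiv ℝ f) z a b := by
    intro a b
    have h : HasFDerivAt (fun z => fderiv ℝ f z b)
        ((ContinuousLinearMap.apply ℝ ℂ b).comp (fderiv ℝ (fderiv ℝ f) z)) z :=
      (ContinuousLinearMap.apply ℝ ℂ b).hasFDerivAt.comp z hd.hasFDerivAt
    rw [h.fderiv]
    simp
  show fderiv ℝ (fun z => fderiv ℝ f z w) z v = fderiv ℝ (fun z => fderiv ℝ f z v) z w
  rw [e, e]
  exact hs _ _

theorem fd_fst {c : V n → ℂ} (hc : ContDiff ℝ ∞ c) (w : V n) (z : VV n) :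
    fderiv ℝ (fun z : VV n => c z.1) z (0, w) = 0 := by
  have h : HasFDerivAt (fun z : VV n => c z.1)
      ((fderiv ℝ c z.1).comp (ContinuousLinearMap.fst ℝ (V n) (V n))) z :=
    (hc.differentiable (by simp) z.1).hasFDerivAt.comp z hasFDerivAt_fst
  rw [h.fderiv]
  simp

theorem fd_snd {c : V n → ℂ} (hc : ContDiff ℝ ∞ c) (w : V n) (z : VV n) :
    fderiv ℝ (fun z : VV n => c z.2) z (w, 0) = 0 := by
  have h : HasFDerivAt (fun z : VV n => c z.2)
      ((fderiv ℝ c z.2).comp (ContinuousLinearMap.snd ℝ (V n) (V n))) z :=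
    (hc.differentiable (by simp) z.2).hasFDerivAt.comp z hasFDerivAt_snd
  rw [h.fderiv]
  simp

theorem sm_of {s : MF n} (hs : SmM s) (i j : Fin n) : ContDiff ℝ ∞ (fun x => (s x i j : ℂ)) :=
  Complex.ofRealCLM.contDiff.comp (hs i j)

theorem DD_ey_fst {P : MC n N} (hP : SmC P) (i : Fin n) (z : VV n) :
    DD (ey i) (fun z => P z.1) z = 0 := by
  ext a b
  exact fd_fst (hP a b) _ z

theorem DD_ex_snd {P : MC n N} (hP : SmC P) (i : Fin n) (z : VV n) :
    DD (ex i) (fun z => P z.2) z = 0 := by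
  ext a b
  exact fd_snd (hP a b) _ z

/-! ## The operator `Lk` -/

section L

variable {s : MF n} {β : Fin n → MC n N}

theorem Lk_congr (hO : IsOpen O) {K L : KC n N} (h : ∀ z ∈ O, K z = L z) :
    ∀ z ∈ O, Lk s β K z = Lk s β L z := by
  intro z hz
  unfold Lk
  simp only [dxk_eq]
  congr 1
  · refine Finset.sum_congr rfl fun i _ => Finset.sum_congr rfl fun j _ => ?_
    rw [DD_congr hO (ex i) (DD_congr hO (ex j) h) z hz]
  · refine Finset.sum_congr rfl fun i _ => ?_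
    rw [DD_congr hO (ex i) h z hz]

theorem smk_Lk (hO : IsOpen O) (hs : SmM s) (hβ : ∀ i, SmC (β i)) {K : KC n N} (hK : SmK O K) :
    SmK O (Lk s β K) := by
  refine smk_add (smk_sum fun i => smk_sum fun j => ?_) (smk_sum fun i => ?_)
  · exact smk_smul (sm_fst hs i j) (smk_DD hO _ (smk_DD hO _ hK))
  · exact smk_mul (smk_fst (hβ i)) (smk_DD hO _ hK)

theorem Lk_sub (hO : IsOpen O) {K L : KC n N} (hK : SmK O K) (hL : SmK O L) :
    ∀ z ∈ O, Lk s β (fun z => K z - L z) z = Lk s β K z - Lk s β L z := by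
  intro z hz
  unfold Lk
  simp only [dxk_eq]
  have e1 : ∀ i j, DD (ex i) (DD (ex j) (fun z => K z - L z)) z =
      DD (ex i) (DD (ex j) K) z - DD (ex i) (DD (ex j) L) z := by
    intro i j
    rw [DD_congr hO (ex i) (DD_sub hO (ex j) hK hL) z hz,
      DD_sub hO _ (smk_DD hO _ hK) (smk_DD hO _ hL) z hz]
  simp only [e1, DD_sub hO _ hK hL z hz, smul_sub, mul_sub, Finset.sum_sub_distrib]
  abel

theorem Lk_sum (hO : IsOpen O) {ι : Type*} {u : Finset ι} {K : ι → KC n N}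
    (hK : ∀ m, SmK O (K m)) :
    ∀ z ∈ O, Lk s β (fun z => ∑ m ∈ u, K m z) z = ∑ m ∈ u, Lk s β (K m) z := by
  intro z hz
  unfold Lk
  simp only [dxk_eq]
  have e1 : ∀ i j, DD (ex i) (DD (ex j) (fun z => ∑ m ∈ u, K m z)) z =
      ∑ m ∈ u, DD (ex i) (DD (ex j) (K m)) z := by
    intro i j
    rw [DD_congr hO (ex i) (DD_sum hO (ex j) hK) z hz,
      DD_sum hO _ (fun m => smk_DD hO _ (hK m)) z hz]
  simp only [e1, DD_sum hO _ hK z hz, Finset.smul_sum, Finset.mul_sum, Finset.sum_add_distrib]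
  congr 1
  · rw [Finset.sum_congr rfl fun i _ => Finset.sum_comm, Finset.sum_comm]
  · rw [Finset.sum_comm]

theorem Lk_add (hO : IsOpen O) {K L : KC n N} (hK : SmK O K) (hL : SmK O L) :
    ∀ z ∈ O, Lk s β (fun z => K z + L z) z = Lk s β K z + Lk s β L z := by
  intro z hz
  unfold Lk
  simp only [dxk_eq]
  have e1 : ∀ i j, DD (ex i) (DD (ex j) (fun z => K z + L z)) z =
      DD (ex i) (DD (ex j) K) z + DD (ex i) (DD (ex j) L) z := by
    intro i j
    rw [DD_congr hO (ex i) (DD_add hO (ex j) hK hL) z hz,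
      DD_add hO _ (smk_DD hO _ hK) (smk_DD hO _ hL) z hz]
  simp only [e1, DD_add hO _ hK hL z hz, smul_add, mul_add, Finset.sum_add_distrib]
  abel

theorem Lk_smul (hO : IsOpen O) {K : KC n N} (hK : SmK O K) {c : V n → ℂ}
    (hc : ContDiff ℝ ∞ c) :
    ∀ z ∈ O, Lk s β (fun z => c z.2 • K z) z = c z.2 • Lk s β K z := by
  have hc' : ContDiffOn ℝ ∞ (fun z : VV n => c z.2) O := (hc.comp contDiff_snd).contDiffOn
  have e1 : ∀ j, ∀ K' : KC n N, SmK O K' → ∀ z ∈ O,
      DD (ex j) (fun z => c z.2 • K' z) z = c z.2 • DD (ex j) K' z := fun j K' hK' =>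
    DD_smul hO (ex j) hc' hK' fun z _ => fd_snd hc _ z
  intro z hz
  unfold Lk
  simp only [dxk_eq]
  have e2 : ∀ i j, DD (ex i) (DD (ex j) (fun z => c z.2 • K z)) z =
      c z.2 • DD (ex i) (DD (ex j) K) z := by
    intro i j
    rw [DD_congr hO (ex i) (e1 j K hK) z hz, e1 i _ (smk_DD hO _ hK) z hz]
  simp only [e2, e1 _ K hK z hz, smul_add, Finset.smul_sum, mul_smul_comm, smul_comm (c z.2)]

theorem Lk_mulr (hO : IsOpen O) {K : KC n N} (hK : SmK O K) {B : MC n N} (hB : SmC B) :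
    ∀ z ∈ O, Lk s β (fun z => K z * B z.2) z = Lk s β K z * B z.2 := by
  have e1 : ∀ j, ∀ K' : KC n N, SmK O K' → ∀ z ∈ O,
      DD (ex j) (fun z => K' z * B z.2) z = DD (ex j) K' z * B z.2 := by
    intro j K' hK' z hz
    rw [DD_mul hO (ex j) hK' (smk_snd hB) z hz, DD_ex_snd hB, mul_zero, add_zero]
  intro z hz
  unfold Lk
  simp only [dxk_eq]
  have e2 : ∀ i j, DD (ex i) (DD (ex j) (fun z => K z * B z.2)) z =
      DD (ex i) (DD (ex j) K) z * B z.2 := by
    intro i j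
    rw [DD_congr hO (ex i) (e1 j K hK) z hz, e1 i _ (smk_DD hO _ hK) z hz]
  simp only [e2, e1 _ K hK z hz, add_mul, Finset.sum_mul, smul_mul_assoc, mul_assoc]

/-- `∂_{y_m}` commutes with the operator in `x`. -/
theorem DD_Lk (hO : IsOpen O) (hs : SmM s) (hβ : ∀ i, SmC (β i)) {K : KC n N} (hK : SmK O K)
    (m : Fin n) : ∀ z ∈ O, DD (ey m) (Lk s β K) z = Lk s β (DD (ey m) K) z := by
  intro z hz
  have h1 : ∀ i j, SmK O (fun z => (s z.1 i j : ℂ) • DD (ex i) (DD (ex j) K) z) := fun i j =>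
    smk_smul (sm_fst hs i j) (smk_DD hO _ (smk_DD hO _ hK))
  have h2 : ∀ i, SmK O (fun z => β i z.1 * DD (ex i) K z) := fun i =>
    smk_mul (smk_fst (hβ i)) (smk_DD hO _ hK)
  have e : DD (ey m) (Lk s β K) z = ∑ i, ∑ j, DD (ey m)
      (fun z => (s z.1 i j : ℂ) • DD (ex i) (DD (ex j) K) z) z
      + ∑ i, DD (ey m) (fun z => β i z.1 * DD (ex i) K z) z := by
    show DD (ey m) (fun z => ∑ i, ∑ j, (s z.1 i j : ℂ) • DD (ex i) (DD (ex j) K) z
      + ∑ i, β i z.1 * DD (ex i) K z) z = _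
    rw [DD_add hO _ (smk_sum fun i => smk_sum fun j => h1 i j) (smk_sum h2) z hz,
      DD_sum hO _ (fun i => smk_sum fun j => h1 i j) z hz, DD_sum hO _ h2 z hz]
    congr 1
    exact Finset.sum_congr rfl fun i _ => DD_sum hO _ (h1 i) z hz
  rw [e]
  unfold Lk
  simp only [dxk_eq]
  congr 1
  · refine Finset.sum_congr rfl fun i _ => Finset.sum_congr rfl fun j _ => ?_
    rw [DD_smul hO (ey m) (sm_fst hs i j) (smk_DD hO _ (smk_DD hO _ hK))
      (fun z _ => fd_fst (sm_of hs i j) _ z) z hz, DD_comm hO (ey m) (ex i) (smk_DD hO _ hK) z hz,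
      DD_congr hO (ex i) (DD_comm hO (ey m) (ex j) hK) z hz]
  · refine Finset.sum_congr rfl fun i _ => ?_
    rw [DD_mul hO (ey m) (smk_fst (hβ i)) (smk_DD hO _ hK) z hz, DD_ey_fst (hβ i), zero_mul,
      zero_add, DD_comm hO (ey m) (ex i) hK z hz]

end L

/-! ## The operator `Rk` -/

section R

variable {s : MF n} {β : Fin n → MC n N}

theorem Rk_congr (hO : IsOpen O) {K L : KC n N} (h : ∀ z ∈ O, K z = L z) :
    ∀ z ∈ O, Rk s β K z = Rk s β L z := by
  intro z hz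
  unfold Rk
  simp only [dyk_eq]
  congr 1
  · refine Finset.sum_congr rfl fun i _ => Finset.sum_congr rfl fun j _ => ?_
    rw [DD_congr hO (ey i) (DD_congr hO (ey j) h) z hz]
  · refine Finset.sum_congr rfl fun i _ => ?_
    rw [DD_congr hO (ey i) h z hz]

theorem smk_Rk (hO : IsOpen O) (hs : SmM s) (hβ : ∀ i, SmC (β i)) {K : KC n N} (hK : SmK O K) :
    SmK O (Rk s β K) := by
  refine smk_add (smk_sum fun i => smk_sum fun j => ?_) (smk_sum fun i => ?_)
  · exact smk_smul (sm_snd hs i j) (smk_DD hO _ (smk_DD hO _ hK))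
  · exact smk_mul (smk_DD hO _ hK) (smk_snd (hβ i))

theorem Rk_sub (hO : IsOpen O) {K L : KC n N} (hK : SmK O K) (hL : SmK O L) :
    ∀ z ∈ O, Rk s β (fun z => K z - L z) z = Rk s β K z - Rk s β L z := by
  intro z hz
  unfold Rk
  simp only [dyk_eq]
  have e1 : ∀ i j, DD (ey i) (DD (ey j) (fun z => K z - L z)) z =
      DD (ey i) (DD (ey j) K) z - DD (ey i) (DD (ey j) L) z := by
    intro i j
    rw [DD_congr hO (ey i) (DD_sub hO (ey j) hK hL) z hz,
      DD_sub hO _ (smk_DD hO _ hK) (smk_DD hO _ hL) z hz]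
  simp only [e1, DD_sub hO _ hK hL z hz, smul_sub, sub_mul, Finset.sum_sub_distrib]
  abel

end R

/-- The two operators commute. -/
theorem Rk_Lk (hO : IsOpen O) {s₁ s₂ : MF n} {β₁ β₂ : Fin n → MC n N} (hs₁ : SmM s₁)
    (hs₂ : SmM s₂) (hβ₁ : ∀ i, SmC (β₁ i)) (hβ₂ : ∀ i, SmC (β₂ i)) {K : KC n N} (hK : SmK O K) :
    ∀ z ∈ O, Rk s₂ β₂ (Lk s₁ β₁ K) z = Lk s₁ β₁ (Rk s₂ β₂ K) z := by
  intro z hz
  have h1 : ∀ i j, SmK O (fun z => (s₂ z.2 i j : ℂ) • DD (ey i) (DD (ey j) K) z) := fun i j =>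
    smk_smul (sm_snd hs₂ i j) (smk_DD hO _ (smk_DD hO _ hK))
  have h2 : ∀ i, SmK O (fun z => DD (ey i) K z * β₂ i z.2) := fun i =>
    smk_mul (smk_DD hO _ hK) (smk_snd (hβ₂ i))
  have e : Lk s₁ β₁ (Rk s₂ β₂ K) z = ∑ i, ∑ j, Lk s₁ β₁
      (fun z => (s₂ z.2 i j : ℂ) • DD (ey i) (DD (ey j) K) z) z
      + ∑ i, Lk s₁ β₁ (fun z => DD (ey i) K z * β₂ i z.2) z := by
    show Lk s₁ β₁ (fun z => ∑ i, ∑ j, (s₂ z.2 i j : ℂ) • DD (ey i) (DD (ey j) K) z
      + ∑ i, DD (ey i) K z * β₂ i z.2) z = _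
    rw [Lk_add hO (smk_sum fun i => smk_sum fun j => h1 i j) (smk_sum h2) z hz,
      Lk_sum hO (fun i => smk_sum fun j => h1 i j) z hz, Lk_sum hO h2 z hz]
    congr 1
    exact Finset.sum_congr rfl fun i _ => Lk_sum hO (h1 i) z hz
  rw [e]
  unfold Rk
  simp only [dyk_eq]
  congr 1
  · refine Finset.sum_congr rfl fun i _ => Finset.sum_congr rfl fun j _ => ?_
    rw [Lk_smul hO (c := fun x => (s₂ x i j : ℂ)) (smk_DD hO _ (smk_DD hO _ hK)) (sm_of hs₂ i j)
        z hz,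
      DD_congr hO (ey i) (DD_Lk hO hs₁ hβ₁ hK j) z hz,
      DD_Lk hO hs₁ hβ₁ (smk_DD hO _ hK) i z hz]
  · refine Finset.sum_congr rfl fun i _ => ?_
    rw [Lk_mulr hO (smk_DD hO _ hK) (hβ₂ i) z hz, DD_Lk hO hs₁ hβ₁ hK i z hz]

end Vale.Agent.P088.PJ.H359
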