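import Vale.Agent.P088.H91.UInv
import Vale.Agent.P088.R2.H935.V.Cal

/-!
# P088, two arbitrary pairs: the coefficients of the operators `P⁻¹ M`
-/

open MeasureTheory Set
open scoped ContDiff Matrix

noncomputable section

namespace Vale.Agent.P088.PJ.H359

open Vale.Agent.P088.LR Vale.Agent.P088.LR.U Vale.Agent.P088.LR.H158
open Vale.Agent.P088.PJ.H935

variable {n N : ℕ}

/-! ## Bounds in `C^k` -/

theorem cl_nn {F : Type*} [NormedAddCommGroup F] [NormedSpace ℝ F] {k : ℕ} {a : ℝ} {f : V n → F}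
    (h : Cl k a f) : 0 ≤ a := (norm_nonneg _).trans (h 0 (Nat.zero_le _) 0)

theorem cl_mono {F : Type*} [NormedAddCommGroup F] [NormedSpace ℝ F] {k k' : ℕ} {a b : ℝ}
    {f : V n → F} (hk : k' ≤ k) (hab : a ≤ b) (h : Cl k a f) : Cl k' b f :=
  fun l hl x => (h l (hl.trans hk) x).trans hab

theorem clc_mono {k k' : ℕ} {a b : ℝ} {P : MC n N} (hk : k' ≤ k) (hab : a ≤ b) (h : ClC k a P) :
    ClC k' b P := fun α β => cl_mono hk hab (h α β)

theorem cl_ofReal {k : ℕ} {a : ℝ} {f : V n → ℝ} (hf : ContDiff ℝ ∞ f) (h : Cl k a f) :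
    Cl k a (fun x => (f x : ℂ)) := by
  have h1 := H91.cl_clm (k := k) Complex.ofRealCLM hf h
  have h2 : ‖Complex.ofRealCLM‖ = 1 := Complex.ofRealCLM_norm
  rw [h2, one_mul] at h1
  exact h1

theorem clc_add {k : ℕ} {a b : ℝ} {P Q : MC n N} (hP : SmC P) (hQ : SmC Q) (h1 : ClC k a P)
    (h2 : ClC k b Q) : ClC k (a + b) fun x => P x + Q x := fun α β =>
  H91.cl_add2 (hP α β) (hQ α β) (h1 α β) (h2 α β)

theorem clc_neg {k : ℕ} {a : ℝ} {P : MC n N} (h1 : ClC k a P) : ClC k a fun x => -P x := by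
  intro α β l hl x
  have e : iteratedFDeriv ℝ l (fun x => (-P x) α β) x =
      -iteratedFDeriv ℝ l (fun x => P x α β) x := iteratedFDeriv_neg_apply
  rw [e, norm_neg]
  exact h1 α β l hl x

theorem clc_sub {k : ℕ} {a b : ℝ} {P Q : MC n N} (hP : SmC P) (hQ : SmC Q) (h1 : ClC k a P)
    (h2 : ClC k b Q) : ClC k (a + b) fun x => P x - Q x := by
  have h := clc_add hP (sneg hQ) h1 (clc_neg h2)
  simpa only [sub_eq_add_neg] using h

theorem clc_sum {ι : Type*} (u : Finset ι) {k : ℕ} {a : ℝ} {P : ι → MC n N}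
    (hP : ∀ j, SmC (P j)) (h : ∀ j, ClC k a (P j)) :
    ClC k (u.card * a) fun x => ∑ j ∈ u, P j x := by
  intro α β
  simp only [Matrix.sum_apply]
  have h1 := H91.cl_fsum (k := k) u (f := fun j x => P j x α β) (fun j _ => hP j α β)
    (a := fun _ => a) (fun j _ => h j α β)
  simpa using h1

theorem clc_mul {k : ℕ} {a b : ℝ} {P Q : MC n N} (hP : SmC P) (hQ : SmC Q) (h1 : ClC k a P)
    (h2 : ClC k b Q) : ClC k (N * (2 ^ k * (a * b))) fun x => P x * Q x := by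
  intro α β
  simp only [Matrix.mul_apply]
  have h := H91.cl_fsum (k := k) (Finset.univ : Finset (Fin N))
    (f := fun c x => P x α c * Q x c β) (fun c _ => (hP α c).mul (hQ c β))
    (a := fun _ => 2 ^ k * (a * b))
    (fun c _ => H91.cl_mul2 (hP α c) (hQ c β) (h1 α c) (h2 c β))
  simpa using h

theorem clc_smul {k : ℕ} {a b : ℝ} {c : V n → ℝ} {P : MC n N} (hc : ContDiff ℝ ∞ c) (hP : SmC P)
    (h1 : Cl k a c) (h2 : ClC k b P) : ClC k (2 ^ k * (a * b)) fun x => (c x : ℂ) • P x := by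
  intro α β
  have hc' : ContDiff ℝ ∞ fun y => (c y : ℂ) := Complex.ofRealCLM.contDiff.comp hc
  have h := H91.cl_mul2 hc' (hP α β) (cl_ofReal hc h1) (h2 α β)
  simpa only [Matrix.smul_apply, smul_eq_mul] using h

theorem cl_pd {F : Type*} [NormedAddCommGroup F] [NormedSpace ℝ F] {k : ℕ} {δ : ℝ} {f : V n → F}
    (hf : ContDiff ℝ ∞ f) (h : Cl (k + 1) δ f) (j : Fin n) : Cl k δ (pd j f) := by
  intro l hl x
  have h1 : ‖(ContinuousLinearMap.apply ℝ F (Pi.single j (1 : ℝ) : V n) : (V n →L[ℝ] F) →L[ℝ] F)‖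
      ≤ 1 := by
    refine ContinuousLinearMap.opNorm_le_bound _ zero_le_one fun T => ?_
    rw [one_mul]
    refine (T.le_opNorm _).trans ?_
    have h2 : ‖(Pi.single j (1 : ℝ) : V n)‖ ≤ 1 := by
      rw [Pi.norm_single]; simp
    calc ‖T‖ * ‖(Pi.single j (1 : ℝ) : V n)‖ ≤ ‖T‖ * 1 :=
          mul_le_mul_of_nonneg_left h2 (norm_nonneg _)
      _ = ‖T‖ := mul_one _
  have hd : ContDiff ℝ ∞ (fderiv ℝ f) := hf.fderiv_right (m := ∞) (by simp)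
  have e : iteratedFDeriv ℝ l (pd j f) x =
      (ContinuousLinearMap.apply ℝ F (Pi.single j (1 : ℝ) : V n)).compContinuousMultilinearMap
        (iteratedFDeriv ℝ l (fderiv ℝ f) x) :=
    (ContinuousLinearMap.apply ℝ F (Pi.single j (1 : ℝ) : V n)).iteratedFDeriv_comp_left
      hd.contDiffAt (mod_cast le_top)
  rw [e]
  refine (ContinuousLinearMap.norm_compContinuousMultilinearMap_le _ _).trans ?_
  calc _ ≤ 1 * ‖iteratedFDeriv ℝ l (fderiv ℝ f) x‖ :=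
        mul_le_mul_of_nonneg_right h1 (norm_nonneg _)
    _ = ‖iteratedFDeriv ℝ (l + 1) f x‖ := by rw [one_mul, norm_iteratedFDeriv_fderiv]
    _ ≤ δ := h (l + 1) (by omega) x

theorem clc_pdm {k : ℕ} {a : ℝ} {P : MC n N} (hP : SmC P) (h : ClC (k + 1) a P) (i : Fin n) :
    ClC k a (pdm i P) := fun α β => cl_pd (hP α β) (h α β) i

theorem cl_const {F : Type*} [NormedAddCommGroup F] [NormedSpace ℝ F] {k : ℕ} (c : F) :
    Cl k ‖c‖ (fun _ : V n => c) := by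
  intro l _ x
  rcases Nat.eq_zero_or_pos l with rfl | hl
  · rw [norm_iteratedFDeriv_zero]
  · rw [iteratedFDeriv_const_of_ne hl.ne']
    simp

theorem clc_cst {k : ℕ} {a : ℝ} (M : Matrix (Fin N) (Fin N) ℂ) (h : ∀ α β, ‖M α β‖ ≤ a) :
    ClC k a (fun _ : V n => M) := fun α β => cl_mono le_rfl (h α β) (cl_const (M α β))

theorem one_norm_le (α β : Fin N) : ‖(1 : Matrix (Fin N) (Fin N) ℂ) α β‖ ≤ 1 := by
  rcases eq_or_ne α β with rfl | h
  · rw [Matrix.one_apply_eq, norm_one]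
  · rw [Matrix.one_apply_ne h, norm_zero]
    exact zero_le_one

theorem clc_one {k : ℕ} : ClC k 1 (fun _ : V n => (1 : Matrix (Fin N) (Fin N) ℂ)) :=
  clc_cst 1 one_norm_le

/-- Near `1`: bounded by `1 + b`. -/
theorem clc_near {k : ℕ} {b : ℝ} {P : MC n N} (hP : SmC P) (h : ClC k b fun x => P x - 1) :
    ClC k (b + 1) P := by
  have h1 := clc_add (P := fun x => P x - 1) (Q := fun _ => 1) (ssub hP (scst 1)) (scst 1) h
    clc_one
  simpa only [sub_add_cancel] using h1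

theorem one_real_le (i j : Fin n) : |(1 : Matrix (Fin n) (Fin n) ℝ) i j| ≤ 1 := by
  rcases eq_or_ne i j with rfl | h
  · rw [Matrix.one_apply_eq, abs_one]
  · rw [Matrix.one_apply_ne h, abs_zero]
    exact zero_le_one

theorem cl_snear {k : ℕ} {b : ℝ} {s : MF n} (hs : SmM s) {i j : Fin n}
    (h : Cl k b fun x => s x i j - (1 : Matrix (Fin n) (Fin n) ℝ) i j) :
    Cl k (b + 1) fun x => s x i j := by
  have h0 : Cl k 1 (fun _ : V n => (1 : Matrix (Fin n) (Fin n) ℝ) i j) :=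
    cl_mono le_rfl (by rw [Real.norm_eq_abs]; exact one_real_le i j) (cl_const _)
  have h1 := H91.cl_add2 (k := k) (f := fun x => s x i j - (1 : Matrix (Fin n) (Fin n) ℝ) i j)
    (g := fun _ => (1 : Matrix (Fin n) (Fin n) ℝ) i j) ((hs i j).sub contDiff_const)
    contDiff_const h h0
  simpa only [sub_add_cancel] using h1

/-! ## The coefficients -/

theorem clc_TP {k : ℕ} {δ : ℝ} {s : MF n} {P : MC n N} (hs : SmM s) (hP : SmC P)
    (h1 : ∀ i j, Cl k δ (fun x => s x i j - (1 : Matrix (Fin n) (Fin n) ℝ) i j))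
    (h2 : ClC k δ (fun x => P x - 1)) (hδ : δ ≤ 1) (i j : Fin n) :
    ClC k (2 ^ k * 4 * δ)
      (fun x => TP s P i j x - ((((1 : Matrix (Fin n) (Fin n) ℝ) i j : ℝ) : ℂ) • 1)) := by
  have hδ0 : 0 ≤ δ := cl_nn (h1 i j)
  have a1 : ClC k (2 ^ k * (δ * (δ + 1))) (fun x =>
      ((s x i j - (1 : Matrix (Fin n) (Fin n) ℝ) i j : ℝ) : ℂ) • P x) :=
    clc_smul ((hs i j).sub contDiff_const) hP (h1 i j) (clc_near hP h2)
  have a0 : Cl k 1 (fun _ : V n => (1 : Matrix (Fin n) (Fin n) ℝ) i j) :=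
    cl_mono le_rfl (by rw [Real.norm_eq_abs]; exact one_real_le i j) (cl_const _)
  have a2 : ClC k (2 ^ k * (1 * δ)) (fun x =>
      (((1 : Matrix (Fin n) (Fin n) ℝ) i j : ℝ) : ℂ) • (P x - 1)) :=
    clc_smul contDiff_const (ssub hP (scst 1)) a0 h2
  have a3 := clc_add (ssmul ((hs i j).sub contDiff_const) hP)
    (ssmul contDiff_const (ssub hP (scst 1))) a1 a2
  have e : (fun x => ((s x i j - (1 : Matrix (Fin n) (Fin n) ℝ) i j : ℝ) : ℂ) • P x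
      + (((1 : Matrix (Fin n) (Fin n) ℝ) i j : ℝ) : ℂ) • (P x - 1)) =
      fun x => TP s P i j x - ((((1 : Matrix (Fin n) (Fin n) ℝ) i j : ℝ) : ℂ) • 1) := by
    funext x
    simp only [TP, Complex.ofReal_sub, sub_smul, smul_sub]
    abel
  rw [e] at a3
  refine clc_mono le_rfl ?_ a3
  have h3 : (0 : ℝ) < 2 ^ k := by positivity
  have h4 : δ * (δ + 1) + 1 * δ ≤ 4 * δ := by nlinarith
  nlinarith [mul_le_mul_of_nonneg_left h4 h3.le]

theorem clc_dTP {k : ℕ} {δ : ℝ} {s : MF n} {P : MC n N} (hs : SmM s) (hP : SmC P)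
    (h1 : ∀ i j, Cl (k + 1) δ (fun x => s x i j - (1 : Matrix (Fin n) (Fin n) ℝ) i j))
    (h2 : ClC (k + 1) δ (fun x => P x - 1)) (hδ : δ ≤ 1) (l i j : Fin n) :
    ClC k (2 ^ (k + 1) * 4 * δ) (pdm l (TP s P i j)) := by
  have a1 := clc_pdm (ssub (sTP hs hP i j) (scst _)) (clc_TP hs hP h1 h2 hδ i j) l
  have e : pdm l (fun x => TP s P i j x
      - ((((1 : Matrix (Fin n) (Fin n) ℝ) i j : ℝ) : ℂ) • (1 : Matrix (Fin N) (Fin N) ℂ))) =
      pdm l (TP s P i j) := by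
    funext x
    rw [dsub (sTP hs hP i j) (scst _), pdm_const, sub_zero]
  rw [e] at a1
  exact a1

theorem clc_kp {k : ℕ} {δ : ℝ} {s : MF n} {G : Fin n → MC n N} (hs : SmM s) (hG : ∀ i, SmC (G i))
    (h1 : ∀ i j, Cl k δ (fun x => s x i j - (1 : Matrix (Fin n) (Fin n) ℝ) i j))
    (h2 : ∀ i, ClC k δ (G i)) (hδ : δ ≤ 1) (i : Fin n) :
    ClC k (n * (2 ^ k * (2 * δ))) (kp s G i) := by
  have a1 : ∀ j, ClC k (2 ^ k * (2 * δ)) (fun x => (s x i j : ℂ) • G j x) := by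
    intro j
    have hδ0 : 0 ≤ δ := cl_nn (h1 i j)
    refine clc_mono le_rfl ?_ (clc_smul (hs i j) (hG j) (cl_snear hs (h1 i j)) (h2 j))
    have h3 : (0 : ℝ) < 2 ^ k := by positivity
    exact mul_le_mul_of_nonneg_left (mul_le_mul_of_nonneg_right (by linarith) hδ0) h3.le
  have a2 := clc_sum Finset.univ (fun j => ssmul (hs i j) (hG j)) a1
  rw [Finset.card_univ, Fintype.card_fin] at a2
  exact a2

theorem sbS {s : MF n} {P : MC n N} {G : Fin n → MC n N} (hs : SmM s) (hP : SmC P)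
    (hG : ∀ i, SmC (G i)) (j : Fin n) :
    SmC (fun x => ∑ i, pdm i (TP s P i j) x + kp s G j x) :=
  sadd (ssum fun i => spdm (sTP hs hP i j) i) (skp hs hG j)

theorem sbD {s : MF n} {P : MC n N} {G : Fin n → MC n N} (hs : SmM s) (hP : SmC P)
    (hG : ∀ i, SmC (G i)) (j : Fin n) :
    SmC (fun x => ∑ i, pdm i (TP s P i j) x - kp s G j x) :=
  ssub (ssum fun i => spdm (sTP hs hP i j) i) (skp hs hG j)

theorem clc_bS {k : ℕ} {δ : ℝ} {s : MF n} {P : MC n N} {G : Fin n → MC n N} (hs : SmM s)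
    (hP : SmC P) (hG : ∀ i, SmC (G i))
    (h1 : ∀ i j, Cl (k + 1) δ (fun x => s x i j - (1 : Matrix (Fin n) (Fin n) ℝ) i j))
    (h2 : ClC (k + 1) δ (fun x => P x - 1)) (h3 : ∀ i, ClC (k + 1) δ (G i)) (hδ : δ ≤ 1)
    (j : Fin n) :
    ClC k (n * (2 ^ k * (10 * δ))) (fun x => ∑ i, pdm i (TP s P i j) x + kp s G j x) ∧
    ClC k (n * (2 ^ k * (10 * δ))) (fun x => ∑ i, pdm i (TP s P i j) x - kp s G j x) := by
  have b1 := clc_sum (Finset.univ : Finset (Fin n)) (fun i => spdm (sTP hs hP i j) i)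
    (fun i => clc_dTP hs hP h1 h2 hδ i i j)
  have b2 := clc_kp (k := k) hs hG (fun i j => cl_mono (Nat.le_succ k) le_rfl (h1 i j))
    (fun i => clc_mono (Nat.le_succ k) le_rfl (h3 i)) hδ j
  simp only [Finset.card_univ, Fintype.card_fin] at b1
  have e : (n : ℝ) * (2 ^ (k + 1) * 4 * δ) + n * (2 ^ k * (2 * δ)) = n * (2 ^ k * (10 * δ)) := by
    rw [pow_succ]; ring
  have c1 := clc_add (ssum fun i => spdm (sTP hs hP i j) i) (skp hs hG j) b1 b2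
  have c2 := clc_sub (ssum fun i => spdm (sTP hs hP i j) i) (skp hs hG j) b1 b2
  rw [e] at c1 c2
  exact ⟨c1, c2⟩

/-- The coefficients of the operators `P⁻¹ M` (and of the transposed ones) are small. -/
theorem coef (n N k : ℕ) : ∃ C δ₀ : ℝ, 1 ≤ C ∧ 0 < δ₀ ∧ δ₀ ≤ 1 ∧ ∀ δ, 0 ≤ δ → δ ≤ δ₀ →
    ∀ (Ω : Set (V n)) (s : MF n) (P : MC n N) (G : Fin n → MC n N), Dt (k + 1) δ Ω s P G →
    CoK k (C * δ) s (bL s P G) ∧ CoK k (C * δ) s (bR s P G) ∧ (∀ x, IsUnit (P x).det) ∧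
      SmC (fun x => (P x)⁻¹) := by
  obtain ⟨C₁, δ₁, hC₁, hδ₁, H⟩ := H91.inv n N k
  set C : ℝ := 1 + N * (2 ^ k * (2 * (n * (2 ^ k * 10)))) with hC
  have hC0 : (0 : ℝ) ≤ N * (2 ^ k * (2 * (n * (2 ^ k * 10)))) := by positivity
  refine ⟨C, min δ₁ (min 1 (1 / C₁)), by linarith, lt_min hδ₁ (lt_min one_pos (by positivity)),
    (min_le_right _ _).trans (min_le_left _ _), ?_⟩
  intro δ hδ0 hδ Ω s P G hd
  have d1 : δ ≤ δ₁ := hδ.trans (min_le_left _ _)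
  have d2 : δ ≤ 1 := hδ.trans ((min_le_right _ _).trans (min_le_left _ _))
  have d3 : δ ≤ 1 / C₁ := hδ.trans ((min_le_right _ _).trans (min_le_right _ _))
  have d4 : C₁ * δ ≤ 1 := by
    rw [le_div_iff₀ hC₁] at d3
    linarith
  obtain ⟨hu, hsi, hci⟩ := H P hd.sP δ hδ0 d1 (clc_mono (Nat.le_succ k) le_rfl hd.cP)
  have hi2 : ClC k 2 (fun x => (P x)⁻¹) := clc_mono le_rfl (by linarith) (clc_near hsi hci)
  have hb := clc_bS hd.ss hd.sP hd.sG hd.cs hd.cP hd.cG d2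
  have hle : N * (2 ^ k * (2 * (n * (2 ^ k * (10 * δ))))) ≤ C * δ := by
    rw [hC, add_mul, one_mul]
    have : N * (2 ^ k * (2 * (n * (2 ^ k * (10 * δ))))) =
      N * (2 ^ k * (2 * (n * (2 ^ k * 10)))) * δ := by ring
    rw [this]
    linarith
  have hC1 : δ ≤ C * δ := le_mul_of_one_le_left hδ0 (by linarith)
  refine ⟨⟨hd.ss, hd.sy, hd.one, fun i j => cl_mono (Nat.le_succ k) hC1 (hd.cs i j), ?_, ?_⟩,
    ⟨hd.ss, hd.sy, hd.one, fun i j => cl_mono (Nat.le_succ k) hC1 (hd.cs i j), ?_, ?_⟩, hu, hsi⟩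
  · exact fun j => smul' hsi (sbS hd.ss hd.sP hd.sG j)
  · intro j
    exact clc_mono le_rfl hle (clc_mul hsi (sbS hd.ss hd.sP hd.sG j) hi2 (hb j).1)
  · exact fun j => smul' (sbD hd.ss hd.sP hd.sG j) hsi
  · intro j
    refine clc_mono le_rfl ?_ (clc_mul (sbD hd.ss hd.sP hd.sG j) hsi (hb j).2 hi2)
    refine le_trans (le_of_eq ?_) hle
    ring

theorem Dt_mono {k k' : ℕ} {δ δ' : ℝ} {Ω : Set (V n)} {s : MF n} {P : MC n N}
    {G : Fin n → MC n N} (hk : k' ≤ k) (hδ : δ ≤ δ') (h : Dt k δ Ω s P G) : Dt k' δ' Ω s P G :=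
  ⟨h.ss, h.sy, h.one, h.sP, h.hP, h.sG, h.hG, fun i j => cl_mono hk hδ (h.cs i j),
    clc_mono hk hδ h.cP, fun i => clc_mono hk hδ (h.cG i), h.dq, h.pe⟩

theorem RP_mono {k k' : ℕ} {δ δ' : ℝ} {Ω : Set (V n)} {s₁ s₂ : MF n} {P₁ P₂ : MC n N}
    {G₁ G₂ Y D : Fin n → MC n N} (hk : k' ≤ k) (hδ : δ ≤ δ')
    (h : RP k δ Ω s₁ s₂ P₁ P₂ G₁ G₂ Y D) : RP k' δ' Ω s₁ s₂ P₁ P₂ G₁ G₂ Y D :=
  ⟨h.op, h.reg, h.sub, Dt_mono hk hδ h.d₁, Dt_mono hk hδ h.d₂, h.os, h.oP, h.oG, h.oD, h.sY,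
    h.sD, fun a => clc_mono hk hδ (h.cY a), fun a => clc_mono hk hδ (h.cD a), h.tD, h.hY, h.gi,
    h.st⟩

theorem CoK_mono {k k' : ℕ} {δ δ' : ℝ} {s : MF n} {β : Fin n → MC n N} (hk : k' ≤ k)
    (hδ : δ ≤ δ') (h : CoK k δ s β) : CoK k' δ' s β :=
  ⟨h.sm, h.sy, h.one, fun i j => cl_mono hk hδ (h.cl i j), h.sb,
    fun i => clc_mono hk hδ (h.cb i)⟩

/-- The coefficients of the reduced data of two pairs. -/
theorem cok (n N k : ℕ) : ∃ C δ₀ : ℝ, 1 ≤ C ∧ 0 < δ₀ ∧ δ₀ ≤ 1 ∧ ∀ δ, 0 ≤ δ → δ ≤ δ₀ →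
    ∀ (Ω : Set (V n)) (s₁ s₂ : MF n) (P₁ P₂ : MC n N) (G₁ G₂ Y D : Fin n → MC n N),
    RP (k + 1) δ Ω s₁ s₂ P₁ P₂ G₁ G₂ Y D →
    CoK k (C * δ) s₁ (bL s₁ P₁ G₁) ∧ CoK k (C * δ) s₂ (bR s₂ P₂ G₂) := by
  obtain ⟨C, δ₀, h1, h2, h3, h4⟩ := coef n N k
  exact ⟨C, δ₀, h1, h2, h3, fun δ a b Ω s₁ s₂ P₁ P₂ G₁ G₂ Y D h =>
    ⟨(h4 δ a b Ω s₁ P₁ G₁ h.d₁).1, (h4 δ a b Ω s₂ P₂ G₂ h.d₂).2.1⟩⟩

end Vale.Agent.P088.PJ.H359
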