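import Vale.Agent.P088.R2.H359.Gau
import Vale.Agent.P088.R2.H935.V.Cal

/-!
# P088, two arbitrary pairs: the form on the diagonal
-/

open MeasureTheory Set
open scoped ContDiff Matrix

noncomputable section

namespace Vale.Agent.P088.PJ.H359

open Vale.Agent.P088.LR Vale.Agent.P088.LR.U Vale.Agent.P088.LR.H158
open Vale.Agent.P088.HY (VV Bs Bn Un DB)

variable {n N : ℕ}

theorem nq_nonneg (A : Matrix (Fin N) (Fin N) ℂ) : 0 ≤ nq A :=
  Finset.sum_nonneg fun _ _ => Finset.sum_nonneg fun _ _ => sq_nonneg _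

/-- Optimization in `t`. -/
theorem cs_am {I a b : ℝ} (ha : 0 ≤ a) (hb : 0 ≤ b) (h : ∀ t > 0, 2 * I ≤ t * a + b / t) :
    I ≤ √a * √b := by
  rcases ha.eq_or_lt with rfl | ha'
  · by_contra hI
    rw [Real.sqrt_zero, zero_mul, not_le] at hI
    have h1 := h ((b + 1) / I) (by positivity)
    rw [mul_zero, zero_add, div_div_eq_mul_div] at h1
    have h2 : b * I / (b + 1) ≤ I := by
      rw [div_le_iff₀ (by positivity)]
      nlinarith
    linarith
  rcases hb.eq_or_lt with rfl | hb'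
  · by_contra hI
    rw [Real.sqrt_zero, mul_zero, not_le] at hI
    have h1 := h (I / (a + 1)) (by positivity)
    rw [zero_div, add_zero] at h1
    have h2 : I / (a + 1) * a ≤ I := by
      rw [div_mul_eq_mul_div, div_le_iff₀ (by positivity)]
      nlinarith
    linarith
  have sa : 0 < √a := Real.sqrt_pos.2 ha'
  have sb : 0 < √b := Real.sqrt_pos.2 hb'
  have h1 := h (√b / √a) (by positivity)
  have e1 : √b / √a * a = √a * √b := by
    rw [div_mul_eq_mul_div, div_eq_iff sa.ne', mul_comm (√a) (√b), mul_assoc,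
      Real.mul_self_sqrt ha]
  have e2 : b / (√b / √a) = √a * √b := by
    rw [div_div_eq_mul_div, div_eq_iff sb.ne', mul_assoc, Real.mul_self_sqrt hb, mul_comm]
  rw [e1, e2] at h1
  linarith

/-- The trace of a product. -/
theorem tr_am (Z A : Matrix (Fin N) (Fin N) ℂ) {t : ℝ} (ht : 0 < t) :
    2 * ‖(Z * A).trace‖ ≤ t * nq Z + nq A / t := by
  have h1 : (Z * A).trace = ∑ a, ∑ b, Z a b * A b a := by
    simp [Matrix.trace, Matrix.mul_apply]
  have h2 : ∀ a b, 2 * ‖Z a b * A b a‖ ≤ t * ‖Z a b‖ ^ 2 + ‖A b a‖ ^ 2 / t := by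
    intro a b
    rw [norm_mul]
    have h3 : t * ‖Z a b‖ ^ 2 + ‖A b a‖ ^ 2 / t - 2 * (‖Z a b‖ * ‖A b a‖) =
        (t * ‖Z a b‖ - ‖A b a‖) ^ 2 / t := by
      field_simp
      ring
    have h4 : 0 ≤ (t * ‖Z a b‖ - ‖A b a‖) ^ 2 / t := by positivity
    linarith
  have h5 : nq A = ∑ a, ∑ b, ‖A b a‖ ^ 2 := Finset.sum_comm
  calc 2 * ‖(Z * A).trace‖ ≤ 2 * ∑ a, ∑ b, ‖Z a b * A b a‖ := by
        rw [h1]
        refine mul_le_mul_of_nonneg_left ?_ (by norm_num)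
        exact (norm_sum_le _ _).trans (Finset.sum_le_sum fun a _ => norm_sum_le _ _)
    _ = ∑ a, ∑ b, 2 * ‖Z a b * A b a‖ := by simp only [Finset.mul_sum]
    _ ≤ ∑ a, ∑ b, (t * ‖Z a b‖ ^ 2 + ‖A b a‖ ^ 2 / t) :=
        Finset.sum_le_sum fun a _ => Finset.sum_le_sum fun b _ => h2 a b
    _ = t * nq Z + nq A / t := by
        rw [h5]
        simp only [nq, Finset.mul_sum, Finset.sum_add_distrib, Finset.sum_div]

theorem cont_nq {S : Set (V n)} {Z : MC n N} (hZ : ∀ a b, ContinuousOn (fun x => Z x a b) S) :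
    ContinuousOn (fun x => nq (Z x)) S := by
  unfold nq
  exact continuousOn_finsetSum _ fun a _ => continuousOn_finsetSum _ fun b _ =>
    ((hZ a b).norm.pow 2)

theorem cont_tr {S : Set (V n)} {Z A : MC n N} (hZ : ∀ a b, ContinuousOn (fun x => Z x a b) S)
    (hA : ∀ a b, ContinuousOn (fun x => A x a b) S) :
    ContinuousOn (fun x => (Z x * A x).trace) S := by
  simp only [Matrix.trace, Matrix.diag_apply, Matrix.mul_apply]
  exact continuousOn_finsetSum _ fun a _ => continuousOn_finsetSum _ fun b _ =>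
    (hZ a b).mul (hA b a)

/-- Cauchy-Schwarz for the traces. -/
theorem tr_cs {ι : Type*} [Fintype ι] {S : Set (V n)} (hS : IsCompact S) {Z A : ι → MC n N}
    (hZ : ∀ i a b, ContinuousOn (fun x => Z i x a b) S)
    (hA : ∀ i a b, ContinuousOn (fun x => A i x a b) S) :
    ‖∫ x in S, ∑ i, (Z i x * A i x).trace‖ ≤
      √(∫ x in S, ∑ i, nq (Z i x)) * √(∫ x in S, ∑ i, nq (A i x)) := by
  have cZ : ContinuousOn (fun x => ∑ i, nq (Z i x)) S :=
    continuousOn_finsetSum _ fun i _ => cont_nq (hZ i)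
  have cA : ContinuousOn (fun x => ∑ i, nq (A i x)) S :=
    continuousOn_finsetSum _ fun i _ => cont_nq (hA i)
  have iZ : IntegrableOn (fun x => ∑ i, nq (Z i x)) S := cZ.integrableOn_compact hS
  have iA : IntegrableOn (fun x => ∑ i, nq (A i x)) S := cA.integrableOn_compact hS
  refine cs_am (integral_nonneg fun x => Finset.sum_nonneg fun i _ => nq_nonneg _)
    (integral_nonneg fun x => Finset.sum_nonneg fun i _ => nq_nonneg _) fun t ht => ?_
  have h1 : ‖∫ x in S, ∑ i, (Z i x * A i x).trace‖ ≤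
      ∫ x in S, (t * (∑ i, nq (Z i x)) + (∑ i, nq (A i x)) / t) / 2 := by
    refine norm_integral_le_of_norm_le (((iZ.const_mul t).add (iA.div_const t)).div_const 2)
      (Filter.Eventually.of_forall fun x => ?_)
    have h2 : ‖∑ i, (Z i x * A i x).trace‖ ≤ ∑ i, ‖(Z i x * A i x).trace‖ := norm_sum_le _ _
    have h3 : 2 * ∑ i, ‖(Z i x * A i x).trace‖ ≤
        t * (∑ i, nq (Z i x)) + (∑ i, nq (A i x)) / t := by
      rw [Finset.mul_sum, Finset.mul_sum, Finset.sum_div, ← Finset.sum_add_distrib]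
      exact Finset.sum_le_sum fun i _ => tr_am _ _ ht
    linarith
  have h4 : ∫ x in S, (t * (∑ i, nq (Z i x)) + (∑ i, nq (A i x)) / t) / 2 =
      (t * (∫ x in S, ∑ i, nq (Z i x)) + (∫ x in S, ∑ i, nq (A i x)) / t) / 2 := by
    rw [integral_div, integral_add (iZ.const_mul t) (iA.div_const t), integral_const_mul,
      integral_div]
  rw [h4] at h1
  linarith

/-! ## The ball `bl0` -/

theorem isCompact_bl0 : IsCompact (bl0 n) := by
  have hc : IsClosed (bl0 n) := isClosed_le HY.H16.continuous_sq continuous_const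
  refine (isCompact_closedBall (0 : V n) 1).of_isClosed_subset hc ?_
  intro x hx
  have h1 : HY.sq x ≤ 1 / 4 := hx
  refine Bs_subset (ρ := 1) zero_le_one ?_
  show HY.sq x < 1 ^ 2
  linarith

theorem bl0_Bn : bl0 n ⊆ Bn n := by
  intro x hx
  have h1 : HY.sq x ≤ 1 / 4 := hx
  show HY.sq x < 1
  linarith

theorem diag_Un {x : V n} (hx : x ∈ bl0 n) : ((x, x) : VV n) ∈ Un n := ⟨bl0_Bn hx, bl0_Bn hx⟩

theorem Un_Us : Un n ⊆ Us n (7 / 4) := by
  have h : Bn n ⊆ Bs n (7 / 4) := by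
    intro x hx
    have h1 : HY.sq x < 1 := hx
    show HY.sq x < (7 / 4) ^ 2
    linarith [show (1 : ℝ) < (7 / 4) ^ 2 by norm_num]
  exact prod_mono h h

theorem cont_diag {K : KC n N} (hK : SmK (Un n) K) (a b : Fin N) :
    ContinuousOn (fun x => K (x, x) a b) (bl0 n) :=
  (hK a b).continuousOn.comp (continuous_id.prodMk continuous_id).continuousOn
    fun _ hx => diag_Un hx

theorem cont_smc {P : MC n N} (hP : SmC P) (S : Set (V n)) (a b : Fin N) :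
    ContinuousOn (fun x => P x a b) S := (hP a b).continuous.continuousOn

/-! ## The form -/

section F

variable {s₁ s₂ : MF n} {P₁ P₂ : MC n N} {G₁ G₂ : Fin n → MC n N}

/-- The integral of the form is the integral over `bl0`. -/
theorem dgB_set (hZ : ∀ i j, ∀ x ∉ bl0 n, Zt s₁ s₂ P₁ P₂ i j x = 0)
    (hQ : ∀ i, ∀ x ∉ bl0 n, Qt s₁ s₂ G₁ G₂ i x = 0) (K : KC n N) :
    ∫ x, dgB s₁ s₂ P₁ P₂ G₁ G₂ K x = ∫ x in bl0 n, dgB s₁ s₂ P₁ P₂ G₁ G₂ K x := by
  rw [setIntegral_eq_integral_of_forall_compl_eq_zero]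
  intro x hx
  unfold dgB
  simp [hZ _ _ x hx, hQ _ x hx]

theorem cont_dgB (hZ : ∀ i j, SmC (Zt s₁ s₂ P₁ P₂ i j)) (hQ : ∀ i, SmC (Qt s₁ s₂ G₁ G₂ i))
    {K : KC n N} (hK : SmK (Un n) K) :
    ContinuousOn (fun x => dgB s₁ s₂ P₁ P₂ G₁ G₂ K x) (bl0 n) := by
  have hO := HY.H16.isOpen_Un (n := n)
  unfold dgB
  refine ContinuousOn.sub (continuousOn_finsetSum _ fun i _ => continuousOn_finsetSum _
    fun j _ => ?_) (continuousOn_finsetSum _ fun i _ => ?_)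
  · exact cont_tr (fun a b => cont_smc (hZ j i) _ a b)
      (fun a b => cont_diag (smk_DD hO _ (smk_DD hO _ hK)) a b)
  · exact cont_tr (fun a b => cont_smc (hQ i) _ a b)
      (fun a b => cont_diag (smk_DD hO _ hK) a b)

theorem dgB_sub {K L : KC n N} (hK : SmK (Un n) K) (hL : SmK (Un n) L) :
    ∀ x ∈ bl0 n, dgB s₁ s₂ P₁ P₂ G₁ G₂ (fun z => K z - L z) x =
      dgB s₁ s₂ P₁ P₂ G₁ G₂ K x - dgB s₁ s₂ P₁ P₂ G₁ G₂ L x := by
  intro x hx
  have hO := HY.H16.isOpen_Un (n := n)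
  have e1 : ∀ i j, dxk i (dyk j (fun z => K z - L z)) (x, x) =
      dxk i (dyk j K) (x, x) - dxk i (dyk j L) (x, x) := by
    intro i j
    simp only [dxk_eq, dyk_eq]
    rw [DD_congr hO (ex i) (DD_sub hO (ey j) hK hL) _ (diag_Un hx),
      DD_sub hO _ (smk_DD hO _ hK) (smk_DD hO _ hL) _ (diag_Un hx)]
  have e2 : ∀ i, dxk i (fun z => K z - L z) (x, x) = dxk i K (x, x) - dxk i L (x, x) := by
    intro i
    simp only [dxk_eq]
    exact DD_sub hO _ hK hL _ (diag_Un hx)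
  unfold dgB
  simp only [e1, e2, mul_sub, Matrix.trace_sub, Finset.sum_sub_distrib]
  ring

/-- If the form of `K - w` vanishes, then the forms of `K` and `w` agree. -/
theorem dgB_eq (hZ : ∀ i j, SmC (Zt s₁ s₂ P₁ P₂ i j)) (hQ : ∀ i, SmC (Qt s₁ s₂ G₁ G₂ i))
    (hZ0 : ∀ i j, ∀ x ∉ bl0 n, Zt s₁ s₂ P₁ P₂ i j x = 0)
    (hQ0 : ∀ i, ∀ x ∉ bl0 n, Qt s₁ s₂ G₁ G₂ i x = 0) {K w : KC n N} (hK : SmK (Un n) K)
    (hw : SmK (Un n) w) (h0 : ∫ x, dgB s₁ s₂ P₁ P₂ G₁ G₂ (fun z => K z - w z) x = 0) :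
    ∫ x, dgB s₁ s₂ P₁ P₂ G₁ G₂ K x = ∫ x in bl0 n, dgB s₁ s₂ P₁ P₂ G₁ G₂ w x := by
  have hm : MeasurableSet (bl0 n) := isCompact_bl0.measurableSet
  rw [dgB_set hZ0 hQ0] at h0 ⊢
  rw [setIntegral_congr_fun hm (dgB_sub hK hw), integral_sub] at h0
  · exact sub_eq_zero.1 h0
  · exact (cont_dgB hZ hQ hK).integrableOn_compact isCompact_bl0
  · exact (cont_dgB hZ hQ hw).integrableOn_compact isCompact_bl0

/-- The estimate of the form. -/
theorem dgB_le (hZ : ∀ i j, SmC (Zt s₁ s₂ P₁ P₂ i j)) (hQ : ∀ i, SmC (Qt s₁ s₂ G₁ G₂ i))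
    (hZ0 : ∀ i j, ∀ x ∉ bl0 n, Zt s₁ s₂ P₁ P₂ i j x = 0) {w : KC n N} (hw : SmK (Un n) w)
    {J z a b : ℝ} (hJ0 : 0 ≤ J) (hz : 0 ≤ z) (ha : 0 ≤ a) (hb : 0 ≤ b)
    (hJ : ∀ i x a b, ‖Qt s₁ s₂ G₁ G₂ i x a b‖ ≤ J)
    (hzz : (∑ i, ∑ j, n2 (Zt s₁ s₂ P₁ P₂ i j)) ≤ z ^ 2)
    (h1 : ∫ p in bl0 n, ∑ i, ∑ j, nq (dxk i (dyk j w) (p, p)) ≤ a ^ 2)
    (h2 : ∫ p in bl0 n, ∑ i, nq (dxk i w (p, p)) ≤ b ^ 2) :
    ‖∫ x in bl0 n, dgB s₁ s₂ P₁ P₂ G₁ G₂ w x‖ ≤
      z * a + √(n * (N * (N * 1)) * volume.real (bl0 n)) * J * b := by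
  have hO := HY.H16.isOpen_Un (n := n)
  have hm : MeasurableSet (bl0 n) := isCompact_bl0.measurableSet
  set Zp : Fin n × Fin n → MC n N := fun p => Zt s₁ s₂ P₁ P₂ p.2 p.1 with hZp
  set Ap : Fin n × Fin n → MC n N := fun p x => dxk p.1 (dyk p.2 w) (x, x) with hAp
  set Bp : Fin n → MC n N := fun i x => dxk i w (x, x) with hBp
  have cZ : ∀ p a b, ContinuousOn (fun x => Zp p x a b) (bl0 n) := fun p a b =>
    cont_smc (hZ p.2 p.1) _ a b
  have cA : ∀ p a b, ContinuousOn (fun x => Ap p x a b) (bl0 n) := fun p a b =>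
    cont_diag (smk_DD hO _ (smk_DD hO _ hw)) a b
  have cQ : ∀ i a b, ContinuousOn (fun x => Qt s₁ s₂ G₁ G₂ i x a b) (bl0 n) := fun i a b =>
    cont_smc (hQ i) _ a b
  have cB : ∀ i a b, ContinuousOn (fun x => Bp i x a b) (bl0 n) := fun i a b =>
    cont_diag (smk_DD hO _ hw) a b
  have t1 := tr_cs isCompact_bl0 cZ cA
  have t2 := tr_cs isCompact_bl0 cQ cB
  have i1 : IntegrableOn (fun x => ∑ p, (Zp p x * Ap p x).trace) (bl0 n) :=
    (continuousOn_finsetSum _ fun p _ => cont_tr (cZ p) (cA p)).integrableOn_compact isCompact_bl0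
  have i2 : IntegrableOn (fun x => ∑ i, (Qt s₁ s₂ G₁ G₂ i x * Bp i x).trace) (bl0 n) :=
    (continuousOn_finsetSum _ fun p _ => cont_tr (cQ p) (cB p)).integrableOn_compact isCompact_bl0
  have e0 : ∀ x, dgB s₁ s₂ P₁ P₂ G₁ G₂ w x = (∑ p, (Zp p x * Ap p x).trace)
      - ∑ i, (Qt s₁ s₂ G₁ G₂ i x * Bp i x).trace := by
    intro x
    unfold dgB
    rw [Fintype.sum_prod_type]
  have e1 : ∫ x in bl0 n, dgB s₁ s₂ P₁ P₂ G₁ G₂ w x = (∫ x in bl0 n, ∑ p, (Zp p x * Ap p x).trace)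
      - ∫ x in bl0 n, ∑ i, (Qt s₁ s₂ G₁ G₂ i x * Bp i x).trace := by
    simp only [e0]
    exact integral_sub i1 i2
  -- the four integrals
  have iZ : ∀ p, IntegrableOn (fun x => nq (Zp p x)) (bl0 n) := fun p =>
    (cont_nq (cZ p)).integrableOn_compact isCompact_bl0
  have s1 : √(∫ x in bl0 n, ∑ p, nq (Zp p x)) ≤ z := by
    have h3 : ∫ x in bl0 n, ∑ p, nq (Zp p x) = ∑ i, ∑ j, n2 (Zt s₁ s₂ P₁ P₂ i j) := by
      rw [integral_finsetSum _ fun p _ => iZ p, Fintype.sum_prod_type, Finset.sum_comm]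
      refine Finset.sum_congr rfl fun i _ => Finset.sum_congr rfl fun j _ => ?_
      unfold n2
      refine setIntegral_eq_integral_of_forall_compl_eq_zero fun x hx => ?_
      show nq (Zt s₁ s₂ P₁ P₂ i j x) = 0
      rw [hZ0 i j x hx]
      simp [nq]
    rw [h3]
    exact Real.sqrt_le_iff.2 ⟨hz, hzz⟩
  have s2 : √(∫ x in bl0 n, ∑ p, nq (Ap p x)) ≤ a := by
    refine Real.sqrt_le_iff.2 ⟨ha, ?_⟩
    have h3 : ∀ x, ∑ p, nq (Ap p x) = ∑ i, ∑ j, nq (dxk i (dyk j w) (x, x)) := fun x => by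
      rw [Fintype.sum_prod_type]
    simp only [h3]
    exact h1
  have s3 : √(∫ x in bl0 n, ∑ i, nq (Bp i x)) ≤ b := Real.sqrt_le_iff.2 ⟨hb, h2⟩
  have s4 : √(∫ x in bl0 n, ∑ i, nq (Qt s₁ s₂ G₁ G₂ i x)) ≤
      √(n * (N * (N * 1)) * volume.real (bl0 n)) * J := by
    have h3 : ∀ x, ∑ i, nq (Qt s₁ s₂ G₁ G₂ i x) ≤ n * (N * (N * 1)) * J ^ 2 := by
      intro x
      have h4 : ∀ i, nq (Qt s₁ s₂ G₁ G₂ i x) ≤ N * (N * 1) * J ^ 2 := by
        intro i
        calc nq (Qt s₁ s₂ G₁ G₂ i x) ≤ ∑ _a : Fin N, ∑ _b : Fin N, J ^ 2 := by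
              unfold nq
              exact Finset.sum_le_sum fun a _ => Finset.sum_le_sum fun b _ =>
                pow_le_pow_left₀ (norm_nonneg _) (hJ i x a b) 2
          _ = N * (N * 1) * J ^ 2 := by simp; ring
      calc ∑ i, nq (Qt s₁ s₂ G₁ G₂ i x) ≤ ∑ _i : Fin n, N * (N * 1) * J ^ 2 :=
            Finset.sum_le_sum fun i _ => h4 i
        _ = n * (N * (N * 1)) * J ^ 2 := by simp; ring
    have h5 : ∫ x in bl0 n, ∑ i, nq (Qt s₁ s₂ G₁ G₂ i x) ≤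
        n * (N * (N * 1)) * volume.real (bl0 n) * J ^ 2 := by
      have h6 : ∫ x in bl0 n, ∑ i, nq (Qt s₁ s₂ G₁ G₂ i x) ≤
          ∫ _x in bl0 n, n * (N * (N * 1)) * J ^ 2 := by
        refine setIntegral_mono_on ?_ ?_ hm fun x _ => h3 x
        · exact (continuousOn_finsetSum _ fun i _ => cont_nq (cQ i)).integrableOn_compact
            isCompact_bl0
        · exact continuousOn_const.integrableOn_compact isCompact_bl0
      rw [setIntegral_const, smul_eq_mul] at h6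
      linarith
    refine Real.sqrt_le_iff.2 ⟨by positivity, ?_⟩
    rw [mul_pow, Real.sq_sqrt (by positivity)]
    exact h5
  rw [e1]
  refine (norm_sub_le _ _).trans (add_le_add (t1.trans ?_) (t2.trans ?_))
  · exact mul_le_mul s1 s2 (Real.sqrt_nonneg _) hz
  · exact mul_le_mul s4 s3 (Real.sqrt_nonneg _) (by positivity)

end F

end Vale.Agent.P088.PJ.H359
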