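import Vale.Agent.P088.R2.H359.Cal

/-!
# P088, two arbitrary pairs: Gaussian integrals near the diagonal
-/

open MeasureTheory Set
open scoped ContDiff Matrix

noncomputable section

namespace Vale.Agent.P088.PJ.H359

open Vale.Agent.P088.LR Vale.Agent.P088.LR.U Vale.Agent.P088.LR.H158
open Vale.Agent.P088.HY (VV Bs Bn Un DB)

variable {n N : ℕ}

/-! ## Sets -/

theorem sq_nonneg' (x : V n) : 0 ≤ HY.sq x := Finset.sum_nonneg fun _ _ => sq_nonneg _

theorem Bs_subset {ρ : ℝ} (hρ : 0 ≤ ρ) : Bs n ρ ⊆ Metric.closedBall (0 : V n) ρ := by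
  intro x hx
  rw [mem_closedBall_zero_iff, pi_norm_le_iff_of_nonneg hρ]
  intro j
  have h1 : x j ^ 2 ≤ HY.sq x :=
    Finset.single_le_sum (f := fun j => x j ^ 2) (fun _ _ => sq_nonneg _) (Finset.mem_univ j)
  have h2 : HY.sq x < ρ ^ 2 := hx
  rw [Real.norm_eq_abs]
  exact abs_le_of_sq_le_sq (by linarith) hρ

theorem Us_subset {ρ : ℝ} (hρ : 0 ≤ ρ) : Us n ρ ⊆ Metric.closedBall (0 : VV n) ρ := by
  intro z hz
  have h : (0 : VV n) = ((0 : V n), (0 : V n)) := rfl
  rw [h, ← closedBall_prod_same]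
  exact ⟨Bs_subset hρ hz.1, Bs_subset hρ hz.2⟩

theorem isOpen_Us (ρ : ℝ) : IsOpen (Us n ρ) := (HY.H16.isOpen_Bs ρ).prod (HY.H16.isOpen_Bs ρ)

theorem vol_Bs_lt {ρ : ℝ} (hρ : 0 ≤ ρ) : volume (Bs n ρ) < ⊤ :=
  (measure_mono (Bs_subset hρ)).trans_lt (isCompact_closedBall _ _).measure_lt_top

theorem intOn_Us {ρ : ℝ} (hρ : 0 ≤ ρ) {f : VV n → ℝ} (hf : Continuous f) :
    IntegrableOn f (Us n ρ) :=
  (hf.continuousOn.integrableOn_compact (isCompact_closedBall _ _)).mono_set (Us_subset hρ)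

theorem intOn_Bs {ρ : ℝ} (hρ : 0 ≤ ρ) {f : V n → ℝ} (hf : Continuous f) :
    IntegrableOn f (Bs n ρ) :=
  (hf.continuousOn.integrableOn_compact (isCompact_closedBall _ _)).mono_set (Bs_subset hρ)

/-! ## Gaussian integrals -/

theorem exp_sq (b : ℝ) (q : V n) : Real.exp (-(b * HY.sq q)) = ∏ j, Real.exp (-b * q j ^ 2) := by
  rw [← Real.exp_sum]
  congr 1
  unfold HY.sq
  rw [Finset.mul_sum, ← Finset.sum_neg_distrib]
  exact Finset.sum_congr rfl fun j _ => by ring

theorem gauss_int {b : ℝ} (hb : 0 < b) :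
    Integrable (fun q : V n => Real.exp (-(b * HY.sq q))) := by
  simp only [exp_sq]
  exact Integrable.fintype_prod (f := fun (_ : Fin n) (t : ℝ) => Real.exp (-b * t ^ 2))
    fun _ => integrable_exp_neg_mul_sq hb

theorem gauss_val (b : ℝ) :
    ∫ q : V n, Real.exp (-(b * HY.sq q)) = √(Real.pi / b) ^ n := by
  simp only [exp_sq]
  rw [integral_fintype_prod_volume_eq_pow (fun t : ℝ => Real.exp (-b * t ^ 2)), integral_gaussian,
    Fintype.card_fin]

theorem cont_sqd : Continuous (fun z : VV n => HY.sq (z.1 - z.2)) :=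
  HY.H16.continuous_sq.comp (continuous_fst.sub continuous_snd)

theorem cont_gauss (b : ℝ) :
    Continuous (fun z : VV n => Real.exp (-(b * HY.sq (z.1 - z.2)))) := by
  have h := cont_sqd (n := n)
  fun_prop

theorem gauss_slice {ρ b : ℝ} (hb : 0 < b) (y : V n) :
    ∫ x in Bs n ρ, Real.exp (-(b * HY.sq (x - y))) ≤ √(Real.pi / b) ^ n := by
  have hi : Integrable (fun x : V n => Real.exp (-(b * HY.sq (x - y)))) :=
    (gauss_int hb).comp_sub_right y
  calc ∫ x in Bs n ρ, Real.exp (-(b * HY.sq (x - y))) ≤ ∫ x, Real.exp (-(b * HY.sq (x - y))) :=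
        setIntegral_le_integral hi (Filter.Eventually.of_forall fun y => (Real.exp_pos _).le)
    _ = ∫ x : V n, Real.exp (-(b * HY.sq x)) :=
        integral_sub_right_eq_self (fun q : V n => Real.exp (-(b * HY.sq q))) y
    _ = _ := gauss_val b

/-- A weight in `y`. -/
theorem gauss_w {ρ b : ℝ} (hρ : 0 ≤ ρ) (hb : 0 < b) {W : V n → ℝ} (hW : Continuous W)
    (hW0 : ∀ y, 0 ≤ W y) :
    ∫ z in Us n ρ, W z.2 * Real.exp (-(b * HY.sq (z.1 - z.2))) ≤
      √(Real.pi / b) ^ n * ∫ y in Bs n ρ, W y := by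
  have hc : Continuous (fun z : VV n => W z.2 * Real.exp (-(b * HY.sq (z.1 - z.2)))) :=
    (hW.comp continuous_snd).mul (cont_gauss b)
  have hi := intOn_Us (n := n) hρ hc
  have h1 : ∫ z in Us n ρ, W z.2 * Real.exp (-(b * HY.sq (z.1 - z.2))) =
      ∫ x in Bs n ρ, ∫ y in Bs n ρ, W y * Real.exp (-(b * HY.sq (x - y))) :=
    setIntegral_prod (μ := (volume : Measure (V n))) (ν := (volume : Measure (V n)))
      (fun z : V n × V n => W z.2 * Real.exp (-(b * HY.sq (z.1 - z.2)))) hi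
  have hi2 : Integrable (Function.uncurry fun x y : V n =>
      W y * Real.exp (-(b * HY.sq (x - y)))) ((volume.restrict (Bs n ρ)).prod
        (volume.restrict (Bs n ρ))) := by
    rw [Measure.prod_restrict]
    exact hi
  rw [h1, integral_integral_swap hi2, ← integral_const_mul]
  refine integral_mono_of_nonneg (Filter.Eventually.of_forall fun y => ?_)
    ((intOn_Bs hρ hW).const_mul _) (Filter.Eventually.of_forall fun y => ?_)
  · exact integral_nonneg fun x => mul_nonneg (hW0 _) (Real.exp_pos _).le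
  · show ∫ x in Bs n ρ, W y * Real.exp (-(b * HY.sq (x - y))) ≤ √(Real.pi / b) ^ n * W y
    rw [integral_const_mul, mul_comm]
    exact mul_le_mul_of_nonneg_right (gauss_slice hb y) (hW0 y)

theorem t_exp (t : ℝ) : t * Real.exp (-t) ≤ 1 := by
  have h1 : t ≤ Real.exp t := by linarith [Real.add_one_le_exp t]
  rw [Real.exp_neg, ← div_eq_mul_inv, div_le_one (Real.exp_pos t)]
  exact h1

theorem t2_exp {t : ℝ} (ht : 0 ≤ t) : t ^ 2 * Real.exp (-t) ≤ 4 := by
  have h1 := t_exp (t / 2)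
  have h2 : 0 ≤ t / 2 * Real.exp (-(t / 2)) := by positivity
  have h3 : t ^ 2 * Real.exp (-t) = 4 * (t / 2 * Real.exp (-(t / 2))) ^ 2 := by
    rw [mul_pow, ← Real.exp_nat_mul]
    push_cast
    ring_nf
  rw [h3]
  nlinarith

/-- The integral of the right hand sides. -/
theorem gauss_main {c τ A B S : ℝ} (hc : 0 < c) (hτ : 0 < τ) (hA : 0 ≤ A) (hB : 0 ≤ B)
    {f : VV n → ℝ} (hf : Continuous f) {W : V n → ℝ} (hW : Continuous W) (hW0 : ∀ y, 0 ≤ W y)
    (hWS : ∫ y in Bs n (7 / 4), W y ≤ S)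
    (hfb : ∀ z ∈ Us n (7 / 4), f z ≤ A * HY.sq (z.1 - z.2) * W z.2 + B * HY.sq (z.1 - z.2) ^ 2) :
    ∫ z in Us n (7 / 4), f z * Real.exp (-(c * τ * HY.sq (z.1 - z.2))) ≤
      √(Real.pi / (c * τ / 2)) ^ n * (A * (2 / (c * τ)) * S
        + B * (16 / (c * τ) ^ 2) * volume.real (Bs n (7 / 4))) := by
  have hρ : (0 : ℝ) ≤ 7 / 4 := by norm_num
  have hb : 0 < c * τ / 2 := by positivity
  have hct : 0 < c * τ := by positivity
  set b := c * τ / 2 with hbd
  set W' : V n → ℝ := fun y => A * (2 / (c * τ)) * W y + B * (16 / (c * τ) ^ 2) with hW'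
  have hW'c : Continuous W' := by fun_prop
  have hW'0 : ∀ y, 0 ≤ W' y := fun y => by
    have := hW0 y
    positivity
  have key : ∀ z ∈ Us n (7 / 4), f z * Real.exp (-(c * τ * HY.sq (z.1 - z.2))) ≤
      W' z.2 * Real.exp (-(b * HY.sq (z.1 - z.2))) := by
    intro z hz
    have hq := sq_nonneg' (z.1 - z.2)
    set q := HY.sq (z.1 - z.2) with hqd
    have e1 : Real.exp (-(c * τ * q)) = Real.exp (-(b * q)) * Real.exp (-(b * q)) := by
      rw [← Real.exp_add]
      congr 1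
      rw [hbd]
      ring
    have h1 : q * Real.exp (-(b * q)) ≤ 2 / (c * τ) := by
      have := t_exp (b * q)
      have h2 : 2 / (c * τ) = 1 / b := by rw [hbd]; field_simp
      rw [h2, le_div_iff₀ hb]
      linarith
    have h2 : q ^ 2 * Real.exp (-(b * q)) ≤ 16 / (c * τ) ^ 2 := by
      have := t2_exp (t := b * q) (by positivity)
      have h2 : 16 / (c * τ) ^ 2 = 4 / b ^ 2 := by rw [hbd]; field_simp; norm_num
      rw [h2, le_div_iff₀ (by positivity)]
      nlinarith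
    calc f z * Real.exp (-(c * τ * q)) ≤ (A * q * W z.2 + B * q ^ 2) *
          Real.exp (-(c * τ * q)) := mul_le_mul_of_nonneg_right (hfb z hz) (Real.exp_pos _).le
      _ = (A * W z.2 * (q * Real.exp (-(b * q))) + B * (q ^ 2 * Real.exp (-(b * q)))) *
          Real.exp (-(b * q)) := by rw [e1]; ring
      _ ≤ (A * W z.2 * (2 / (c * τ)) + B * (16 / (c * τ) ^ 2)) * Real.exp (-(b * q)) := by
          refine mul_le_mul_of_nonneg_right (add_le_add ?_ ?_) (Real.exp_pos _).le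
          · exact mul_le_mul_of_nonneg_left h1 (mul_nonneg hA (hW0 _))
          · exact mul_le_mul_of_nonneg_left h2 hB
      _ = W' z.2 * Real.exp (-(b * q)) := by rw [hW']; ring
  have i1 := intOn_Us (n := n) hρ (hf.mul (cont_gauss (c * τ)))
  have i2 := intOn_Us (n := n) hρ ((hW'c.comp continuous_snd).mul (cont_gauss b))
  refine (setIntegral_mono_on i1 i2 (isOpen_Us _).measurableSet key).trans ?_
  refine (gauss_w hρ hb hW'c hW'0).trans ?_
  refine mul_le_mul_of_nonneg_left ?_ (by positivity)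
  have i3 : IntegrableOn (fun y => A * (2 / (c * τ)) * W y) (Bs n (7 / 4)) :=
    intOn_Bs hρ (by fun_prop)
  have i4 : IntegrableOn (fun _ : V n => B * (16 / (c * τ) ^ 2)) (Bs n (7 / 4)) :=
    intOn_Bs hρ continuous_const
  have e : ∫ y in Bs n (7 / 4), W' y = A * (2 / (c * τ)) * (∫ y in Bs n (7 / 4), W y)
      + B * (16 / (c * τ) ^ 2) * volume.real (Bs n (7 / 4)) := by
    rw [hW', integral_add i3 i4, integral_const_mul, setIntegral_const, smul_eq_mul]
    ring
  rw [e]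
  gcongr

end Vale.Agent.P088.PJ.H359
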