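import Vale.Agent.P088.R2.H359.Cok
import Vale.Agent.P088.R2.H359.Csz
import Vale.Agent.P088.R2.H551.V.Spec

/-!
# P088, two arbitrary pairs: the main inequality (row KEY)
-/

open MeasureTheory Set
open scoped ContDiff Matrix

noncomputable section

namespace Vale.Agent.P088.PJ.H359

open Vale.Agent.P088.LR Vale.Agent.P088.LR.U Vale.Agent.P088.LR.H158
open Vale.Agent.P088.HY (VV Bs Bn Un DB)
open Vale.Agent.P088.PJ.H935

variable {n N : ℕ}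

/-! ## Auxiliary facts -/

theorem int_bl0 {E : Type*} [NormedAddCommGroup E] [NormedSpace ℝ E] {f : V n → E}
    (hf : Continuous f) (h0 : ∀ x ∉ bl0 n, f x = 0) : Integrable f :=
  hf.integrable_of_hasCompactSupport (HasCompactSupport.intro isCompact_bl0 h0)

theorem c_nq {P : MC n N} (hP : SmC P) : Continuous fun x => nq (P x) := by
  unfold nq
  exact continuous_finsetSum _ fun a _ => continuous_finsetSum _ fun b _ =>
    ((hP a b).continuous.norm.pow 2)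

theorem c_tr {P Q : MC n N} (hP : SmC P) (hQ : SmC Q) :
    Continuous fun x => (P x * Q x).trace := by
  simp only [Matrix.trace, Matrix.diag_apply, Matrix.mul_apply]
  exact continuous_finsetSum _ fun a _ => continuous_finsetSum _ fun b _ =>
    (hP a b).continuous.mul (hQ b a).continuous

theorem c_nqk {K : KC n N} (hK : SmK univ K) : Continuous fun z => nq (K z) := by
  unfold nq
  exact continuous_finsetSum _ fun a _ => continuous_finsetSum _ fun b _ =>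
    (((smk_univ.1 hK a b).continuous).norm.pow 2)

theorem n2_nonneg (P : MC n N) : 0 ≤ n2 P := integral_nonneg fun _ => nq_nonneg _

theorem nD_nonneg (D : Fin n → MC n N) : 0 ≤ nD D :=
  Finset.sum_nonneg fun _ _ => Finset.sum_nonneg fun _ _ => n2_nonneg _

theorem nq_zero : nq (0 : Matrix (Fin N) (Fin N) ℂ) = 0 := by simp [nq]

/-- The Gaussian factor. -/
theorem gfac {c τ : ℝ} (hc : 0 < c) (hτ : 0 < τ) :
    √(Real.pi / (c * τ / 2)) = √(2 * Real.pi / c) / √τ := by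
  rw [← Real.sqrt_div (by positivity)]
  congr 1
  field_simp

/-- The bound of the Gaussian integral in terms of `Q`. -/
theorem gauss_fin {c τ CB δ h J' v Cq : ℝ} (m : ℕ) (hc : 0 < c) (hτ : 0 < τ) (hCB : 0 < CB)
    (hδ : 0 ≤ δ) (hh : 0 ≤ h) (hJ' : 0 ≤ J') (hv : 0 ≤ v)
    (hCq : Cq = 1 + √(2 * Real.pi / c) ^ m * (CB * (2 / c))
      + √(2 * Real.pi / c) ^ m * (CB * (16 / c ^ 2 * v))) :
    √(Real.pi / (c * τ / 2)) ^ m * (CB * δ ^ 2 * (2 / (c * τ)) * h ^ 2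
        + CB * J' ^ 2 * (16 / (c * τ) ^ 2) * v) ≤
      (Cq * (δ * h + J' / √τ)) ^ 2 / √τ ^ (m + 2) := by
  have hs : 0 < √τ := Real.sqrt_pos.2 hτ
  set g := √(2 * Real.pi / c) ^ m with hg
  have hg0 : 0 ≤ g := by positivity
  set r := √τ with hr
  have hτr : τ = r ^ 2 := (Real.sq_sqrt hτ.le).symm
  set A := g * (CB * (2 / c)) with hA
  set B := g * (CB * (16 / c ^ 2 * v)) with hB
  have hA0 : 0 ≤ A := by positivity
  have hB0 : 0 ≤ B := by positivity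
  have e1 : √(Real.pi / (c * τ / 2)) ^ m = g / r ^ m := by
    rw [gfac hc hτ, div_pow]
  have e2 : √(Real.pi / (c * τ / 2)) ^ m * (CB * δ ^ 2 * (2 / (c * τ)) * h ^ 2
        + CB * J' ^ 2 * (16 / (c * τ) ^ 2) * v) =
      (A * (δ * h) ^ 2 + B * (J' / r) ^ 2) / r ^ (m + 2) := by
    rw [e1, hτr, hA, hB]
    field_simp
    ring
  rw [e2]
  refine div_le_div_of_nonneg_right ?_ (by positivity)
  have h1 : 0 ≤ δ * h := by positivity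
  have h2 : 0 ≤ J' / r := by positivity
  have hC1 : A ≤ Cq ^ 2 := by nlinarith
  have hC2 : B ≤ Cq ^ 2 := by nlinarith
  have h3 : A * (δ * h) ^ 2 ≤ Cq ^ 2 * (δ * h) ^ 2 := mul_le_mul_of_nonneg_right hC1 (sq_nonneg _)
  have h4 : B * (J' / r) ^ 2 ≤ Cq ^ 2 * (J' / r) ^ 2 :=
    mul_le_mul_of_nonneg_right hC2 (sq_nonneg _)
  have h5 : (Cq * (δ * h + J' / r)) ^ 2 = Cq ^ 2 * (δ * h) ^ 2 + Cq ^ 2 * (J' / r) ^ 2
      + 2 * Cq ^ 2 * ((δ * h) * (J' / r)) := by ring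
  have h6 : 0 ≤ 2 * Cq ^ 2 * ((δ * h) * (J' / r)) := by positivity
  linarith

/-- The two ways of writing the integral of `V : k`. -/
theorem int_V {Ω : Set (V n)} {s₁ s₂ : MF n} {P₁ P₂ : MC n N} {D : Fin n → MC n N}
    {k2 : Fin n → Fin n → MC n N} (sub : Ω ⊆ bl0 n) (hZ : ∀ i j, SmC (Zt s₁ s₂ P₁ P₂ i j))
    (sD : ∀ a, SmC (D a)) (hT : Te Ω s₁ k2) :
    ∫ x, ∑ i, ∑ j, (Vt s₁ s₂ P₁ P₂ D i j x * k2 i j x).trace =
      (∫ x, ∑ i, ∑ j, (Zt s₁ s₂ P₁ P₂ i j x * k2 i j x).trace)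
        + ∫ x, ∑ i, ∑ j, ((pdm i (D j) x + pdm j (D i) x) * k2 i j x).trace := by
  have hk0 : ∀ i j, ∀ x ∉ bl0 n, k2 i j x = 0 := fun i j x hx =>
    hT.z i j x fun h => hx (sub h)
  rw [← integral_add]
  · refine integral_congr_ae (Filter.Eventually.of_forall fun x => ?_)
    beta_reduce
    rw [← Finset.sum_add_distrib]
    refine Finset.sum_congr rfl fun i _ => ?_
    rw [← Finset.sum_add_distrib]
    refine Finset.sum_congr rfl fun j _ => ?_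
    rw [Vt, add_assoc, add_mul, Matrix.trace_add]
  · refine int_bl0 (continuous_finsetSum _ fun i _ => continuous_finsetSum _ fun j _ =>
      c_tr (hZ i j) (hT.sm i j)) fun x hx => ?_
    simp [hk0 _ _ x hx]
  · refine int_bl0 (continuous_finsetSum _ fun i _ => continuous_finsetSum _ fun j _ =>
      c_tr (sadd (spdm (sD j) i) (spdm (sD i) j)) (hT.sm i j)) fun x hx => ?_
    simp [hk0 _ _ x hx]

theorem int_k2 {Ω : Set (V n)} {s₁ : MF n} {k2 : Fin n → Fin n → MC n N} (sub : Ω ⊆ bl0 n)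
    (hT : Te Ω s₁ k2) {h : ℝ} (hk : (∑ i, ∑ j, n2 (k2 i j)) ≤ h ^ 2) (S : Set (V n)) :
    ∫ y in S, ∑ i, ∑ j, nq (k2 i j y) ≤ h ^ 2 := by
  have hk0 : ∀ i j, ∀ x ∉ bl0 n, k2 i j x = 0 := fun i j x hx =>
    hT.z i j x fun h => hx (sub h)
  have hi : ∀ i j, Integrable (fun y => nq (k2 i j y)) := fun i j =>
    int_bl0 (c_nq (hT.sm i j)) fun x hx => by rw [hk0 i j x hx, nq_zero]
  have hI : Integrable (fun y => ∑ i, ∑ j, nq (k2 i j y)) :=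
    integrable_finsetSum _ fun i _ => integrable_finsetSum _ fun j _ => hi i j
  have h0 : ∀ y, 0 ≤ ∑ i, ∑ j, nq (k2 i j y) := fun y =>
    Finset.sum_nonneg fun _ _ => Finset.sum_nonneg fun _ _ => nq_nonneg _
  refine (setIntegral_le_integral hI (Filter.Eventually.of_forall h0)).trans ?_
  rw [integral_finsetSum _ fun i _ => integrable_finsetSum _ fun j _ => hi i j]
  refine le_trans (le_of_eq ?_) hk
  refine Finset.sum_congr rfl fun i _ => ?_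
  rw [integral_finsetSum _ fun j _ => hi i j]
  rfl

/-! ## The correction -/

/-- The content of `RowWD` for fixed constants. -/
def WDc (n N k : ℕ) (C c δ₀ τ₀ : ℝ) : Prop :=
  ∀ (s₁ s₂ : MF n) (β₁ β₂ : Fin n → MC n N), CoK k δ₀ s₁ β₁ → CoK k δ₀ s₂ β₂ →
  ∀ η τ : ℝ, 0 ≤ η → DB k η s₁ s₂ → τ₀ ≤ τ → τ * η ≤ δ₀ →
  ∀ F₁ F₂ : KC n N, SmK univ F₁ → SmK univ F₂ →
  (∀ z ∈ Us n (7 / 4), Rk s₂ β₂ F₁ z = Lk s₁ β₁ F₂ z) →
  (∀ z : VV n, z.2 ∉ bl0 n → F₁ z = 0 ∧ F₂ z = 0) →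
  ∀ Q M : ℝ, 0 ≤ Q → 0 ≤ M →
  ∫ z in Us n (7 / 4), (nq (F₁ z) + nq (F₂ z)) * Real.exp (-(c * τ * HY.sq (z.1 - z.2))) ≤
    Q ^ 2 / √τ ^ (n + 2) →
  (∀ a b, ∀ l ≤ k, ∀ p ∈ bl0 n, ∀ z ∈ Metric.ball (p, p) (2 / √τ),
    ‖iteratedFDeriv ℝ l (fun z => F₁ z a b + F₂ z a b) z‖ ≤ M * √τ ^ l) →
  ∃ w : KC n N, SmK (Un n) w ∧ (∀ z ∈ Un n, Lk s₁ β₁ w z = F₁ z) ∧
    (∀ z ∈ Un n, Rk s₂ β₂ w z = F₂ z) ∧
    ∫ p in bl0 n, ∑ i, ∑ j, nq (dxk i (dyk j w) (p, p)) ≤ C * (Q + M) ^ 2 ∧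
    ∫ p in bl0 n, ∑ i, nq (dxk i w (p, p)) ≤ C * (Q + M) ^ 2 / τ

/-- The value of the form of an approximate solution. -/
theorem step_w {n N kW : ℕ} {CW c δW τW : ℝ} (hCW : 0 < CW) (WD : WDc n N kW CW c δW τW)
    {s₁ s₂ : MF n} {P₁ P₂ : MC n N} {G₁ G₂ : Fin n → MC n N}
    (cok1 : CoK kW δW s₁ (bL s₁ P₁ G₁)) (cok2 : CoK kW δW s₂ (bR s₂ P₂ G₂)) {η τ : ℝ}
    (hη : 0 ≤ η) (hτ0 : 0 < τ) (hDB : DB kW η s₁ s₂) (hτ : τW ≤ τ) (hτη : τ * η ≤ δW)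
    {F1 F2 K : KC n N} (sF1 : SmK univ F1) (sF2 : SmK univ F2) (sK : SmK univ K)
    (eK1 : ∀ z ∈ Us n (7 / 4), Lk s₁ (bL s₁ P₁ G₁) K z = F1 z)
    (eK2 : ∀ z ∈ Us n (7 / 4), Rk s₂ (bR s₂ P₂ G₂) K z = F2 z)
    (zF : ∀ z : VV n, z.2 ∉ bl0 n → F1 z = 0 ∧ F2 z = 0) {Q M : ℝ} (hQ0 : 0 ≤ Q) (hM0 : 0 ≤ M)
    (hgauss : ∫ z in Us n (7 / 4), (nq (F1 z) + nq (F2 z)) *
      Real.exp (-(c * τ * HY.sq (z.1 - z.2))) ≤ Q ^ 2 / √τ ^ (n + 2))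
    (hder : ∀ a b, ∀ l ≤ kW, ∀ p ∈ bl0 n, ∀ z ∈ Metric.ball (p, p) (2 / √τ),
      ‖iteratedFDeriv ℝ l (fun z => F1 z a b + F2 z a b) z‖ ≤ M * √τ ^ l)
    (OV : ∀ K : KC n N, SmK (Un n) K → (∀ z ∈ Un n, Lk s₁ (bL s₁ P₁ G₁) K z = 0) →
      (∀ z ∈ Un n, Rk s₂ (bR s₂ P₂ G₂) K z = 0) → ∫ x, dgB s₁ s₂ P₁ P₂ G₁ G₂ K x = 0)
    (hZ : ∀ i j, SmC (Zt s₁ s₂ P₁ P₂ i j)) (hQ : ∀ i, SmC (Qt s₁ s₂ G₁ G₂ i))
    (hZ0 : ∀ i j, ∀ x ∉ bl0 n, Zt s₁ s₂ P₁ P₂ i j x = 0)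
    (hQz : ∀ i, ∀ x ∉ bl0 n, Qt s₁ s₂ G₁ G₂ i x = 0) {J z : ℝ} (hJ0 : 0 ≤ J) (hz : 0 ≤ z)
    (hJ : ∀ i x a b, ‖Qt s₁ s₂ G₁ G₂ i x a b‖ ≤ J)
    (hzz : (∑ i, ∑ j, n2 (Zt s₁ s₂ P₁ P₂ i j)) ≤ z ^ 2) :
    ‖∫ x, dgB s₁ s₂ P₁ P₂ G₁ G₂ K x‖ ≤ z * (√CW * (Q + M)) +
      √(n * (N * (N * 1)) * volume.real (bl0 n)) * J * (√CW * (Q + M) / √τ) := by
  have hcomp : ∀ z ∈ Us n (7 / 4), Rk s₂ (bR s₂ P₂ G₂) F1 z = Lk s₁ (bL s₁ P₁ G₁) F2 z := by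
    intro z hz
    rw [← Rk_congr (isOpen_Us _) eK1 z hz, ← Lk_congr (isOpen_Us _) eK2 z hz]
    exact Rk_Lk isOpen_univ cok1.sm cok2.sm cok1.sb cok2.sb sK z (mem_univ z)
  obtain ⟨w, sw, ew1, ew2, iw1, iw2⟩ := WD s₁ s₂ (bL s₁ P₁ G₁) (bR s₂ P₂ G₂) cok1 cok2 η τ hη
    hDB hτ hτη F1 F2 sF1 sF2 hcomp zF Q M hQ0 hM0 hgauss hder
  have hO := HY.H16.isOpen_Un (n := n)
  have sK' : SmK (Un n) K := SmK.mono sK (subset_univ _)
  have hdg0 := OV (fun z => K z - w z) (smk_sub sK' sw)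
    (fun z hz => by rw [Lk_sub hO sK' sw z hz, eK1 z (Un_Us hz), ew1 z hz, sub_self])
    (fun z hz => by rw [Rk_sub hO sK' sw z hz, eK2 z (Un_Us hz), ew2 z hz, sub_self])
  rw [dgB_eq hZ hQ hZ0 hQz sK' sw hdg0]
  exact dgB_le hZ hQ hZ0 sw hJ0 hz (a := √CW * (Q + M)) (b := √CW * (Q + M) / √τ)
    (by positivity) (by positivity) hJ hzz
    (by rw [mul_pow, Real.sq_sqrt hCW.le]; exact iw1)
    (by rw [div_pow, mul_pow, Real.sq_sqrt hCW.le, Real.sq_sqrt hτ0.le]; exact iw2)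

/-- The Gaussian bound of the right hand sides. -/
theorem step_g {Ω : Set (V n)} {s₁ : MF n} {k2 : Fin n → Fin n → MC n N} (sub : Ω ⊆ bl0 n)
    (hT : Te Ω s₁ k2) {h : ℝ} (hk : (∑ i, ∑ j, n2 (k2 i j)) ≤ h ^ 2) {F1 F2 : KC n N}
    (sF1 : SmK univ F1) (sF2 : SmK univ F2) {c τ CB δ J' Cq : ℝ} (hc : 0 < c) (hτ : 0 < τ)
    (hCB : 0 < CB) (hδ : 0 ≤ δ) (hh : 0 ≤ h) (hJ' : 0 ≤ J')
    (hCq : Cq = 1 + √(2 * Real.pi / c) ^ n * (CB * (2 / c))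
      + √(2 * Real.pi / c) ^ n * (CB * (16 / c ^ 2 * volume.real (Bs n (7 / 4)))))
    (bF1 : ∀ z ∈ Us n (7 / 4), nq (F1 z) ≤
      CB * δ ^ 2 * HY.sq (z.1 - z.2) * ∑ i, ∑ j, nq (k2 i j z.2))
    (bF2 : ∀ z ∈ Us n (7 / 4), nq (F2 z) ≤ CB * J' ^ 2 * HY.sq (z.1 - z.2) ^ 2) :
    ∫ z in Us n (7 / 4), (nq (F1 z) + nq (F2 z)) *
      Real.exp (-(c * τ * HY.sq (z.1 - z.2))) ≤
        (Cq * (δ * h + J' / √τ)) ^ 2 / √τ ^ (n + 2) := by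
  have hWc : Continuous fun y => ∑ i, ∑ j, nq (k2 i j y) :=
    continuous_finsetSum _ fun i _ => continuous_finsetSum _ fun j _ => c_nq (hT.sm i j)
  have hW0 : ∀ y, 0 ≤ ∑ i, ∑ j, nq (k2 i j y) := fun y =>
    Finset.sum_nonneg fun _ _ => Finset.sum_nonneg fun _ _ => nq_nonneg _
  refine (gauss_main (A := CB * δ ^ 2) (B := CB * J' ^ 2) hc hτ (by positivity) (by positivity)
    ((c_nqk sF1).add (c_nqk sF2)) hWc hW0 (int_k2 sub hT hk _) ?_).trans ?_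
  · intro z hz
    exact add_le_add (bF1 z hz) (bF2 z hz)
  · exact gauss_fin n hc hτ hCB hδ hh hJ' measureReal_nonneg hCq

/-- The final arithmetic. -/
theorem step_a {X CI CΓ δ z hh CW Cq CB C5 J J' r : ℝ} (hCI : 0 < CI) (hCΓ : 0 < CΓ)
    (hδ : 0 ≤ δ) (hz : 0 ≤ z) (hh0 : 0 ≤ hh) (hCq : 0 < Cq) (hCB : 0 < CB) (hC5 : 0 ≤ C5)
    (hJ : 0 ≤ J) (hJ' : 0 ≤ J') (hr : 0 < r)
    (hX : X ≤ CI * ((CΓ + 1) * δ) * z * hh + (z * (√CW * (Cq * (δ * hh + J' / r) + CB * J' / r)) +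
      C5 * J * (√CW * (Cq * (δ * hh + J' / r) + CB * J' / r) / r))) :
    X ≤ (CI * (CΓ + 1) + √CW * (Cq + CB) * (1 + C5)) * δ * z * hh +
      (CI * (CΓ + 1) + √CW * (Cq + CB) * (1 + C5)) * z * (J' / r) +
      (CI * (CΓ + 1) + √CW * (Cq + CB) * (1 + C5)) * J * (δ * hh + J' / r) / r := by
  have hW := Real.sqrt_nonneg CW
  generalize √CW = W at *
  have e : CB * J' / r = CB * (J' / r) := by ring
  rw [e] at hX
  have hj : 0 ≤ J' / r := by positivity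
  generalize J' / r = j at *
  have h1 : 0 ≤ δ * hh := by positivity
  set E := CI * (CΓ + 1) with hE
  have hE0 : 0 ≤ E := by positivity
  set G := W * (Cq + CB) with hG
  have hG0 : 0 ≤ G := by positivity
  have h2 : W * (Cq * (δ * hh + j) + CB * j) ≤ G * (δ * hh + j) := by
    rw [hG]
    nlinarith [mul_nonneg hW (mul_nonneg hCB.le h1)]
  have h3 : z * (W * (Cq * (δ * hh + j) + CB * j)) ≤ z * (G * (δ * hh + j)) :=
    mul_le_mul_of_nonneg_left h2 hz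
  have h4 : C5 * J * (W * (Cq * (δ * hh + j) + CB * j) / r) ≤
      C5 * J * (G * (δ * hh + j) / r) :=
    mul_le_mul_of_nonneg_left (div_le_div_of_nonneg_right h2 hr.le) (by positivity)
  have h5 : CI * ((CΓ + 1) * δ) * z * hh = E * (δ * z * hh) := by rw [hE]; ring
  have h6 : 0 ≤ (δ * hh + j) / r := by positivity
  have h7 : C5 * J * (G * (δ * hh + j) / r) = G * C5 * (J * ((δ * hh + j) / r)) := by ring
  have h8 : (E + G * (1 + C5)) * J * (δ * hh + j) / r =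
      (E + G * (1 + C5)) * (J * ((δ * hh + j) / r)) := by ring
  have h9 : z * (G * (δ * hh + j)) = G * (δ * z * hh) + G * (z * j) := by ring
  rw [h8]
  rw [h5] at hX
  rw [h7] at h4
  rw [h9] at h3
  have p1 : 0 ≤ δ * z * hh := by positivity
  have p2 : 0 ≤ z * j := by positivity
  have p3 : 0 ≤ J * ((δ * hh + j) / r) := by positivity
  have q1 : (E + G * (1 + C5)) * δ * z * hh = E * (δ * z * hh) + G * (δ * z * hh)
      + G * C5 * (δ * z * hh) := by ring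
  have q2 : (E + G * (1 + C5)) * z * j = E * (z * j) + G * (z * j) + G * C5 * (z * j) := by ring
  have q3 : (E + G * (1 + C5)) * (J * ((δ * hh + j) / r)) = E * (J * ((δ * hh + j) / r))
      + G * (J * ((δ * hh + j) / r)) + G * C5 * (J * ((δ * hh + j) / r)) := by ring
  rw [q1, q2, q3]
  have r1 : 0 ≤ G * C5 * (δ * z * hh) := by positivity
  have r2 : 0 ≤ E * (z * j) := by positivity
  have r3 : 0 ≤ G * C5 * (z * j) := by positivity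
  have r4 : 0 ≤ E * (J * ((δ * hh + j) / r)) := by positivity
  have r5 : 0 ≤ G * (J * ((δ * hh + j) / r)) := by positivity
  linarith

end Vale.Agent.P088.PJ.H359
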