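import Vale.Agent.P088.R2.H359.Key

/-!
# P088, two arbitrary pairs: row KEY
-/

open MeasureTheory Set
open scoped ContDiff Matrix

noncomputable section

namespace Vale.Agent.P088.PJ.H359

open Vale.Agent.P088.LR Vale.Agent.P088.LR.U Vale.Agent.P088.LR.H158
open Vale.Agent.P088.HY (VV Bs Bn Un DB)
open Vale.Agent.P088.PJ.H935

/-- Real arithmetic of the last step. -/
theorem step_n {a b R V : ℂ} {x y E : ℝ} (hV : V = a + b) {d : ℂ} (hR : R = -a + d)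
    (h1 : ‖d + b‖ ≤ x) (h2 : ‖R‖ ≤ y) (hE : x ≤ E) : ‖V‖ ≤ E + y := by
  have e : V = (d + b) - R := by rw [hV, hR]; ring
  rw [e]
  exact (norm_sub_le _ _).trans (add_le_add (h1.trans hE) h2)

/-- The choice of `δ₀`. -/
theorem choose_d {a b c d e f g h i : ℝ} (ha : 0 < a) (hb : 0 < b) (hc : 0 < c) (hd : 0 < d)
    (he : 0 < e) (hf : 0 < f) (hg : 0 < g) (hh : 0 < h) (hi : 0 < i) : ∃ δ₀ : ℝ, 0 < δ₀ ∧
    δ₀ ≤ a ∧ δ₀ ≤ b ∧ δ₀ ≤ c ∧ δ₀ ≤ d ∧ δ₀ ≤ e ∧ δ₀ ≤ f ∧ δ₀ ≤ g ∧ δ₀ ≤ h ∧ δ₀ ≤ i := by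
  refine ⟨min (min (min a b) (min c d)) (min (min e f) (min (min g h) i)),
    lt_min (lt_min (lt_min ha hb) (lt_min hc hd)) (lt_min (lt_min he hf)
      (lt_min (lt_min hg hh) hi)), ?_, ?_, ?_, ?_, ?_, ?_, ?_, ?_, ?_⟩
  · exact (min_le_left _ _).trans ((min_le_left _ _).trans (min_le_left _ _))
  · exact (min_le_left _ _).trans ((min_le_left _ _).trans (min_le_right _ _))
  · exact (min_le_left _ _).trans ((min_le_right _ _).trans (min_le_left _ _))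
  · exact (min_le_left _ _).trans ((min_le_right _ _).trans (min_le_right _ _))
  · exact (min_le_right _ _).trans ((min_le_left _ _).trans (min_le_left _ _))
  · exact (min_le_right _ _).trans ((min_le_left _ _).trans (min_le_right _ _))
  · exact (min_le_right _ _).trans ((min_le_right _ _).trans
      ((min_le_left _ _).trans (min_le_left _ _)))
  · exact (min_le_right _ _).trans ((min_le_right _ _).trans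
      ((min_le_left _ _).trans (min_le_right _ _)))
  · exact (min_le_right _ _).trans ((min_le_right _ _).trans (min_le_right _ _))

/-- One configuration. -/
theorem key_cfg {n N kW : ℕ} {CW c δW τW : ℝ} (hCW : 0 < CW) (hc : 0 < c)
    (WD : WDc n N kW CW c δW τW) {Cq CB C5 CI CΓ : ℝ} (hCB : 0 < CB) (hCI : 0 < CI)
    (hCΓ : 0 < CΓ) (hCq0 : 0 < Cq)
    (hCq : Cq = 1 + √(2 * Real.pi / c) ^ n * (CB * (2 / c))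
      + √(2 * Real.pi / c) ^ n * (CB * (16 / c ^ 2 * volume.real (Bs n (7 / 4)))))
    (hC5 : C5 = √(n * (N * (N * 1)) * volume.real (bl0 n)))
    {k : ℕ} {δ : ℝ} (hδ0 : 0 ≤ δ) {Ω : Set (V n)} {s₁ s₂ : MF n} {P₁ P₂ : MC n N}
    {G₁ G₂ Y D : Fin n → MC n N} (h : RP k δ Ω s₁ s₂ P₁ P₂ G₁ G₂ Y D)
    {k2 : Fin n → Fin n → MC n N} (hT : Te Ω s₁ k2)
    (cok1 : CoK kW δW s₁ (bL s₁ P₁ G₁)) (cok2 : CoK kW δW s₂ (bR s₂ P₂ G₂))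
    {J J' η τ : ℝ} (hJ : 0 ≤ J) (hJ' : 0 ≤ J') (hη : 0 ≤ η) (hτ1 : 1 ≤ τ)
    (hJQ : ∀ i x a b, ‖Qt s₁ s₂ G₁ G₂ i x a b‖ ≤ J) (hDB : DB kW η s₁ s₂) (hτ : τW ≤ τ)
    (hτη : τ * η ≤ δW) {z hh : ℝ} (hz : 0 ≤ z) (hhh : 0 ≤ hh)
    (hZ : (∑ i, ∑ j, n2 (Zt s₁ s₂ P₁ P₂ i j)) + nD D ≤ z ^ 2)
    (hk2 : (∑ i, ∑ j, n2 (k2 i j)) ≤ hh ^ 2)
    {F1 F2 K : KC n N} (sF1 : SmK univ F1) (sF2 : SmK univ F2) (sK : SmK univ K)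
    (eK1 : ∀ z ∈ Us n (7 / 4), Lk s₁ (bL s₁ P₁ G₁) K z = F1 z)
    (eK2 : ∀ z ∈ Us n (7 / 4), Rk s₂ (bR s₂ P₂ G₂) K z = F2 z)
    (zF : ∀ z : VV n, z.2 ∉ bl0 n → F1 z = 0 ∧ F2 z = 0)
    (bF1 : ∀ z ∈ Us n (7 / 4), nq (F1 z) ≤
      CB * δ ^ 2 * HY.sq (z.1 - z.2) * ∑ i, ∑ j, nq (k2 i j z.2))
    (bF2 : ∀ z ∈ Us n (7 / 4), nq (F2 z) ≤ CB * J' ^ 2 * HY.sq (z.1 - z.2) ^ 2)
    (dF : ∀ a b, ∀ l ≤ kW, ∀ p ∈ bl0 n, ∀ z ∈ Metric.ball (p, p) (2 / √τ),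
      ‖iteratedFDeriv ℝ l (fun z => F1 z a b + F2 z a b) z‖ ≤ CB * J' / √τ * √τ ^ l)
    (OV : ∀ K : KC n N, SmK (Un n) K → (∀ z ∈ Un n, Lk s₁ (bL s₁ P₁ G₁) K z = 0) →
      (∀ z ∈ Un n, Rk s₂ (bR s₂ P₂ G₂) K z = 0) → ∫ x, dgB s₁ s₂ P₁ P₂ G₁ G₂ K x = 0)
    {R : ℂ} (vK : ∫ x, dgB s₁ s₂ P₁ P₂ G₁ G₂ K x =
      -(∫ x, ∑ i, ∑ j, (Zt s₁ s₂ P₁ P₂ i j x * k2 i j x).trace) + R)
    (hI : ‖R + ∫ x, ∑ i, ∑ j, ((pdm i (D j) x + pdm j (D i) x) * k2 i j x).trace‖ ≤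
      CI * ((CΓ + 1) * δ) * √(nD D) * √(∑ i, ∑ j, n2 (k2 i j))) :
    ‖∫ x, ∑ i, ∑ j, (Vt s₁ s₂ P₁ P₂ D i j x * k2 i j x).trace‖ ≤
      (CI * (CΓ + 1) + √CW * (Cq + CB) * (1 + C5)) * δ * z * hh +
      (CI * (CΓ + 1) + √CW * (Cq + CB) * (1 + C5)) * z * (J' / √τ) +
      (CI * (CΓ + 1) + √CW * (Cq + CB) * (1 + C5)) * J * (δ * hh + J' / √τ) / √τ := by
  have hτ0 : 0 < τ := lt_of_lt_of_le one_pos hτ1
  have hs : 0 < √τ := Real.sqrt_pos.2 hτ0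
  have hnD := nD_nonneg D
  have hnZ : 0 ≤ ∑ i, ∑ j, n2 (Zt s₁ s₂ P₁ P₂ i j) :=
    Finset.sum_nonneg fun _ _ => Finset.sum_nonneg fun _ _ => n2_nonneg _
  have hgauss := step_g h.sub hT hk2 sF1 sF2 hc hτ0 hCB hδ0 hhh hJ' hCq bF1 bF2
  have hR := step_w hCW (c := c) WD cok1 cok2 hη hτ0 hDB hτ
    hτη sF1 sF2 sK eK1 eK2 zF (Q := Cq * (δ * hh + J' / √τ)) (M := CB * J' / √τ)
    (mul_nonneg hCq0.le (add_nonneg (mul_nonneg hδ0 hhh) (div_nonneg hJ' hs.le)))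
    (div_nonneg (mul_nonneg hCB.le hJ') hs.le) hgauss dF OV
    (sZ h) (sq' h) (fun i j x hx => oZ h i j fun h' => hx (h.sub h'))
    (fun i x hx => oq h i fun h' => hx (h.sub h')) hJ hz hJQ
    ((le_add_of_nonneg_right hnD).trans hZ)
  have hV := int_V (s₁ := s₁) (s₂ := s₂) (P₁ := P₁) (P₂ := P₂) h.sub (sZ h) h.sD hT
  have hE : CI * ((CΓ + 1) * δ) * √(nD D) * √(∑ i, ∑ j, n2 (k2 i j)) ≤
      CI * ((CΓ + 1) * δ) * z * hh := by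
    have a1 : √(nD D) ≤ z := Real.sqrt_le_iff.2 ⟨hz, (le_add_of_nonneg_left hnZ).trans hZ⟩
    have a2 : √(∑ i, ∑ j, n2 (k2 i j)) ≤ hh := Real.sqrt_le_iff.2 ⟨hhh, hk2⟩
    have a3 : 0 ≤ CI * ((CΓ + 1) * δ) := by positivity
    exact mul_le_mul (mul_le_mul_of_nonneg_left a1 a3) a2 (Real.sqrt_nonneg _)
      (mul_nonneg a3 hz)
  have hX := step_n hV vK hI hR hE
  rw [← hC5] at hX
  have hC50 : 0 ≤ C5 := by rw [hC5]; exact Real.sqrt_nonneg _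
  exact step_a hCI hCΓ hδ0 hz hhh hCq0 hCB hC50 hJ hJ' hs hX

theorem rowKEY : RowBI → RowKLA → RowKLB → RowKLI → RowWD → RowOV → RowKEY := by
  intro hBI hKLA hKLB hKLI hWD hOV n N hn
  obtain ⟨kW, CW, c, δW, τW, hCW, hc, hδW, hτW, WD⟩ := hWD n N hn
  obtain ⟨kO, δO, hδO, OV⟩ := hOV n N hn
  obtain ⟨kA, δA, hδA, KLA⟩ := hKLA n N hn
  obtain ⟨kB, CB, δB, hCB, hδB, KLB⟩ := hKLB n N kW
  obtain ⟨kI, CI, δI, hCI, hδI, KLI⟩ := hKLI n N (by omega)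
  obtain ⟨Cc, δc, hCc, hδc, hδc1, COK⟩ := cok n N kW
  obtain ⟨CΓ, δΓ, hCΓ, hδΓ, BI⟩ := hBI n N (kB + kI)
  have hCc0 : 0 < Cc := lt_of_lt_of_le one_pos hCc
  obtain ⟨Cq, hCq⟩ : ∃ Cq : ℝ, Cq = 1 + √(2 * Real.pi / c) ^ n * (CB * (2 / c))
      + √(2 * Real.pi / c) ^ n * (CB * (16 / c ^ 2 * volume.real (Bs n (7 / 4)))) := ⟨_, rfl⟩
  have hv0 : 0 ≤ volume.real (Bs n (7 / 4)) := measureReal_nonneg
  have hCq0 : 0 < Cq := by rw [hCq]; positivity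
  obtain ⟨C5, hC5⟩ : ∃ C5 : ℝ, C5 = √(n * (N * (N * 1)) * volume.real (bl0 n)) := ⟨_, rfl⟩
  have hC50 : 0 ≤ C5 := by rw [hC5]; exact Real.sqrt_nonneg _
  have hCΓ1 : 0 < CΓ + 1 := by linarith
  obtain ⟨δ₀, hδ₀0, d1, d2, d3, d4, d5, d6, d7, d8, d9⟩ := choose_d hδO hδA hδB hδΓ hδc
    (div_pos hδW hCc0) hδW (div_pos hδI hCΓ1) (div_pos one_pos hCΓ)
  have hC0 : 0 < CI * (CΓ + 1) + √CW * (Cq + CB) * (1 + C5) := by positivity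
  refine ⟨kW + 1 + kO + kA + (kB + kI + 1), CI * (CΓ + 1) + √CW * (Cq + CB) * (1 + C5), δ₀,
    max τW 1, hC0, hδ₀0, lt_max_of_lt_right one_pos, ?_⟩
  have n1 : kB + kI + 1 ≤ kW + 1 + kO + kA + (kB + kI + 1) := by omega
  have n2 : kA ≤ kW + 1 + kO + kA + (kB + kI + 1) := by omega
  have n3 : kB ≤ kW + 1 + kO + kA + (kB + kI + 1) := by omega
  have n4 : kI ≤ kW + 1 + kO + kA + (kB + kI + 1) := by omega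
  have n5 : kW + 1 ≤ kW + 1 + kO + kA + (kB + kI + 1) := by omega
  have n6 : kO ≤ kW + 1 + kO + kA + (kB + kI + 1) := by omega
  have n7 : kW ≤ kW + 1 + kO + kA + (kB + kI + 1) := by omega
  have n8 : kB ≤ kB + kI := by omega
  have n9 : kI ≤ kB + kI := by omega
  generalize kW + 1 + kO + kA + (kB + kI + 1) = k at *
  intro δ hδ0 hδ Ω s₁ s₂ P₁ P₂ G₁ G₂ Y D h k2 hT J J' η τ hJ hJ' hη ck2 hJQ hDB hτ hτη z hh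
    hz hhh hZ hk2
  have hδI' : (CΓ + 1) * δ ≤ δI := by
    rw [mul_comm]
    exact (le_div_iff₀ hCΓ1).1 (hδ.trans d8)
  have hδG : CΓ * δ ≤ 1 := by
    rw [mul_comm]
    exact (le_div_iff₀ hCΓ).1 (hδ.trans d9)
  have hδW' : Cc * δ ≤ δW := by
    rw [mul_comm]
    exact (le_div_iff₀ hCc0).1 (hδ.trans d6)
  have g1 : δ ≤ (CΓ + 1) * δ := le_mul_of_one_le_left hδ0 (by linarith)
  have g2 : CΓ * δ ≤ (CΓ + 1) * δ := mul_le_mul_of_nonneg_right (by linarith) hδ0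
  obtain ⟨Γ, sΓ, iΓ, -, cΓ⟩ := BI Y h.sY δ hδ0 (hδ.trans d4)
    (fun a => clc_mono n1 le_rfl (h.cY a))
  obtain ⟨K, sK, eK1, eK2, vK⟩ := KLA Ω s₁ s₂ P₁ P₂ G₁ G₂ Y D
    (RP_mono n2 (hδ.trans d2) h) Γ sΓ iΓ k2 hT
  obtain ⟨sF1, sF2, zF, bF1, bF2, dF⟩ := KLB δ hδ0 (hδ.trans d3) Ω s₁ s₂ P₁ P₂ G₁ G₂ Y D
    (RP_mono n3 le_rfl h) Γ sΓ (fun a b => clc_mono n8 hδG (cΓ a b)) k2 hT J' hJ'
    (fun i j => clc_mono n3 le_rfl (ck2 i j))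
  obtain ⟨cok1, cok2⟩ := COK δ hδ0 (hδ.trans d5) Ω s₁ s₂ P₁ P₂ G₁ G₂ Y D
    (RP_mono n5 le_rfl h)
  have hI := KLI ((CΓ + 1) * δ) (mul_nonneg hCΓ1.le hδ0) hδI' Ω s₁ s₂ P₁ P₂ G₁ G₂ Y D
    (RP_mono n4 g1 h) Γ sΓ (fun a b => clc_mono n9 g2 (cΓ a b)) k2 hT
  have hτ1 : 1 ≤ τ := (le_max_right _ _).trans hτ
  exact key_cfg hCW hc WD hCB hCI hCΓ hCq0 hCq hC5 hδ0 h hT (CoK_mono le_rfl hδW' cok1)
    (CoK_mono le_rfl hδW' cok2) hJ hJ' hη hτ1 hJQ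
    (fun i j => cl_mono n7 le_rfl (hDB i j)) ((le_max_left _ _).trans hτ) (hτη.trans d7) hz hhh
    hZ hk2 sF1 sF2 sK eK1 eK2 zF bF1 bF2 (dF (√τ) (Real.one_le_sqrt.2 hτ1))
    (OV Ω s₁ s₂ P₁ P₂ G₁ G₂ Y D (RP_mono n6 (hδ.trans d1) h)) vK hI

end Vale.Agent.P088.PJ.H359
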